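import Vale.Agent.P032.S5.H180.Odd
import Vale.Agent.P032.S5.H483.Irr

/-!
# P032, carriers: bases

`Face T v F`: `F` is a set of three colours of `T v` which contains no palette of the unit circle
about `v`.  At a point with three colours `F = T v` is a face.  The first lemmas of the case of at
most three colours hold at faces, and with at most three colours on the circle the ring is odd.
-/

open Set Filter Topology Metric

noncomputable section

namespace Vale.Agent.P032.S5.H180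

open Vale.Agent.P032.Six Vale.Agent.P032.S5.H783 Vale.Agent.P032.H180

variable {U : Fin 6 → Set ℂ} {T : ℂ → Set (Fin 6)} {v : ℂ} {F : Set (Fin 6)}

/-- a base: three colours of `T v` which contain no palette of the unit circle about `v` -/
structure Face (T : ℂ → Set (Fin 6)) (v : ℂ) (F : Set (Fin 6)) : Prop where
  sub : F ⊆ T v
  three : F.ncard = 3
  out : ∀ y, dist y v = 1 → ∃ i ∈ T y, i ∉ F

namespace Face

theorem of_three (h : Irr U T) (h3 : (T v).ncard = 3) : Face T v (T v) :=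
  ⟨Subset.rfl, h3, fun _ hy => h.not_sub' hy h3.le⟩

theorem arcX (h : Irr U T) (f : Face T v F) {p : ℂ} {t : Fin 6} (ht : T p ⊆ insert t F) :
    ∀ᶠ q in 𝓝[sphere v 1] p, t ∈ T q := by
  filter_upwards [mem_nhdsWithin_of_mem_nhds (h.nhd p), self_mem_nhdsWithin] with q h1 h2
  obtain ⟨s, hs, hsu⟩ := f.out q h2
  rcases ht (h1 hs) with rfl | h4
  · exact hs
  · exact absurd h4 hsu

/-- **Lemma X** at a base -/
theorem lemmaX (h : Irr U T) (f : Face T v F) {p w : ℂ} {t : Fin 6} (hp : dist p v = 1)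
    (ht : T p ⊆ insert t F) (hw : dist p w = 1) (htw : t ∈ Pal U w) :
    w = v ∨ w + v = 2 * p :=
  h.mx.partner_line hp ((f.arcX h ht).mono fun q hq => h.sub q hq) hw htw

/-- **[5]** at a base -/
theorem five (h : Irr U T) (f : Face T v F) {u q : ℂ} {G : Set (Fin 6)} (hG : G ⊆ Pal U u)
    (hcov : ∀ i, i ∈ G ∨ i ∈ F) (hne : u ≠ v) (hq : dist q u = 1) (hq' : dist q v = 1)
    (hne2 : u + v ≠ 2 * q) (s : Fin 6) : ∃ t ∈ T q, t ∈ G ∧ t ≠ s := by
  by_contra hcon
  push Not at hcon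
  have hsub : T q ⊆ insert s F := by
    intro m hm
    rcases hcov m with h1 | h1
    · exact Or.inl (hcon m hm h1)
    · exact Or.inr h1
  by_cases hsu : s ∈ G
  · rcases f.lemmaX h hq' hsub hq (hG hsu) with h1 | h1
    · exact hne h1
    · exact hne2 h1
  · obtain ⟨t, ht, htF⟩ := f.out q hq'
    rcases hcov t with h1 | h1
    · exact hsu (hcon t ht h1 ▸ h1)
    · exact htF h1

/-- a common point of the circles about bases with complementary sets has two colours of each -/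
theorem common (h : Irr U T) (f : Face T v F) {u q : ℂ} (g : Face T u Fᶜ) (hne : u ≠ v)
    (hq : dist q u = 1) (hq' : dist q v = 1) (hne2 : u + v ≠ 2 * q) : 4 ≤ (T q).ncard := by
  have a1 := fun s => f.five (G := Fᶜ) h (g.sub.trans (h.sub u))
    (fun i => (em (i ∈ F)).symm) hne hq hq' hne2 s
  have a2 := fun s => g.five (G := F) h (f.sub.trans (h.sub v))
    (fun i => em (i ∈ F)) hne.symm hq' hq (by rw [add_comm]; exact hne2) s
  obtain ⟨t1, ht1, ht1v, -⟩ := a1 0
  obtain ⟨t2, ht2, ht2v, ht12⟩ := a1 t1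
  obtain ⟨s1, hs1, hs1y, -⟩ := a2 0
  obtain ⟨s2, hs2, hs2y, hs12⟩ := a2 s1
  have hd : ∀ i j, i ∈ Fᶜ → j ∈ F → i ≠ j := by
    rintro i j hi hj rfl
    exact hi hj
  have h4 : ({t1, t2, s1, s2} : Set (Fin 6)) ⊆ T q := by
    rintro m (rfl | rfl | rfl | rfl) <;> assumption
  have h5 : ({t1, t2, s1, s2} : Set (Fin 6)).ncard = 4 := by
    rw [Set.ncard_insert_of_notMem, Set.ncard_insert_of_notMem, Set.ncard_pair hs12.symm]
    · rintro (h6 | h6)
      · exact hd _ _ ht2v hs1y h6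
      · exact hd _ _ ht2v hs2y h6
    · rintro (h6 | h6 | h6)
      · exact ht12 h6.symm
      · exact hd _ _ ht1v hs1y h6
      · exact hd _ _ ht1v hs2y h6
  rw [← h5]
  exact Set.ncard_le_ncard h4 (Set.toFinite _)

/-- colours outside the base at the points of the circle -/
theorem Q_ne (f : Face T v F) {y : ℂ} (hy : dist y v = 1) : (T y \ F).Nonempty := by
  obtain ⟨i, hi, hiF⟩ := f.out y hy
  exact ⟨i, hi, hiF⟩

/-- not all colours outside the base -/
theorem Q_ne_compl (h : Irr U T) (f : Face T v F) {y : ℂ} (hy : dist y v = 1)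
    (hy3 : (T y).ncard ≤ 3) (hq3 : ∀ q, dist q v = 1 → dist q y = 1 → (T q).ncard ≤ 3) :
    ∃ i, i ∉ F ∧ i ∉ T y := by
  by_contra hcon
  push Not at hcon
  have hcc : (Fᶜ).ncard = 3 := by
    rw [Set.ncard_compl, f.three, Nat.card_eq_fintype_card, Fintype.card_fin]
  have hsub : Fᶜ ⊆ T y := fun i hi => hcon i hi
  have heq : Fᶜ = T y := Set.eq_of_subset_of_ncard_le hsub (by rw [hcc]; exact hy3)
    (Set.toFinite _)
  have g : Face T y Fᶜ := by
    rw [heq]
    exact of_three h (by rw [← heq]; exact hcc)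
  obtain ⟨q, hqv, hqy, hne⟩ := exists_third hy
  have hyv : y ≠ v := by
    rintro rfl
    simp at hy
  have h4 := f.common h g hyv hqy hqv (by rw [add_comm]; exact hne)
  have := hq3 q hqv hqy
  omega

/-- **(R60)** at a base -/
theorem R60 (h : Irr U T) (f : Face T v F) {y y2 : ℂ} (hy : dist y v = 1) (hy2 : dist y2 v = 1)
    (hyy : dist y y2 = 1) (hc : (T y).ncard ≤ 3) (hc2 : (T y2).ncard ≤ 3) :
    ¬ (T y \ F ⊆ T y2) := by
  intro hsub
  obtain ⟨d, hd, hdv⟩ := f.out y hy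
  have hd2 : d ∈ T y2 := hsub ⟨hd, hdv⟩
  by_cases h1 : T y ⊆ insert d F
  · exact ne_of_dist hy2 hy (f.lemmaX h hy h1 hyy (h.sub _ hd2))
  obtain ⟨e, he, he'⟩ := Set.not_subset.1 h1
  have hed : e ≠ d := fun h2 => he' (Or.inl h2)
  have hev : e ∉ F := fun h2 => he' (Or.inr h2)
  by_cases h4 : T y ⊆ T y2
  · exact h.not_sub hyy hc2 h4
  obtain ⟨t, ht, ht'⟩ := Set.not_subset.1 h4
  have htv : t ∈ F := by
    by_contra h5
    exact ht' (hsub ⟨ht, h5⟩)
  have htd : t ≠ d := fun h5 => hdv (h5 ▸ htv)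
  have hte : t ≠ e := fun h5 => hev (h5 ▸ htv)
  have h6 : T y = {t, d, e} := by
    symm
    apply Set.eq_of_subset_of_ncard_le
    · rintro m (rfl | rfl | rfl) <;> assumption
    · rw [Set.ncard_insert_of_notMem, Set.ncard_pair hed.symm]
      · exact hc
      · rintro (h7 | h7)
        · exact htd h7
        · exact hte h7
    · exact Set.toFinite _
  have h7 : T y ⊆ insert t (T y2) := by
    rw [h6]
    rintro m (rfl | rfl | rfl)
    · exact Or.inl rfl
    · exact Or.inr hd2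
    · exact Or.inr (hsub ⟨he, hev⟩)
  have h8 := h.lemmaX hyy hc2 h7 (v := v) hy (h.sub v (f.sub htv))
  rcases h8 with h8 | h8
  · rw [h8] at hy2; simp at hy2
  · have h9 : y2 - v = 2 * (y - v) := by linear_combination h8
    have h10 : dist y2 v = 2 := by
      rw [dist_eq_norm, h9, norm_mul, ← dist_eq_norm, hy]; simp
    linarith

/-- **The odd ring at a base** with at most three colours on the circle, fine sequences -/
theorem odd' (h : Irr U T) (f : Face T v F) (hle : ∀ y, dist y v = 1 → (T y).ncard ≤ 3)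
    {c d e : Fin 6} (hcov : ∀ i, i ∉ F ↔ i = c ∨ i = d ∨ i = e) (hcd : c ≠ d) (hde : d ≠ e)
    (hce : c ≠ e) (hnf : ¬ Frz v T ![c, d, e]) :
    ∃ δ > 0, ∀ (n : ℕ) (s : ℕ → ℝ) (lab : ℕ → Fin 6), (∀ k ≤ n, s k ∈ Icc (0 : ℝ) 6) → s 0 = 0 →
      s n = 6 → (∀ k < n, |s k - s (k + 1)| < δ) →
      (∀ k ≤ n, lab k ∈ T (Vale.Agent.P032.H180.pt v (s k)) ∧ lab k ∉ F) → lab n = lab 0 →
      ∑ k ∈ Finset.range n, eps (lab k) (lab (k + 1)) {c, d} = 1 :=
  odd_of_not_frz' hcov hcd hde hce h.nhd (fun _ hy => f.Q_ne hy)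
    (fun _ hy => f.Q_ne_compl h hy (hle _ hy) fun q hq _ => hle q hq)
    (fun _ _ hy hz hyz => f.R60 h hy hz hyz (hle _ hy) (hle _ hz)) hnf

/-- **The odd ring at a base** with at most three colours on the circle, polar form -/
theorem odd (h : Irr U T) (f : Face T v F) (hle : ∀ y, dist y v = 1 → (T y).ncard ≤ 3)
    {c d e : Fin 6} (hcov : ∀ i, i ∉ F ↔ i = c ∨ i = d ∨ i = e) (hcd : c ≠ d) (hde : d ≠ e)
    (hce : c ≠ e) (hnf : ¬ Frz v T ![c, d, e]) :
    ∃ N : ℕ, ∀ n : ℕ, N ≤ n → ∀ lab : ℕ → Fin 6,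
      (∀ k ≤ n, lab k ∈ T (v + cis (2 * Real.pi * k / n)) ∧ lab k ∉ F) → lab n = lab 0 →
      ∑ k ∈ Finset.range n, eps (lab k) (lab (k + 1)) {c, d} = 1 :=
  odd_of_not_frz hcov hcd hde hce h.nhd (fun _ hy => f.Q_ne hy)
    (fun _ hy => f.Q_ne_compl h hy (hle _ hy) fun q hq _ => hle q hq)
    (fun _ _ hy hz hyz => f.R60 h hy hz hyz (hle _ hy) (hle _ hz)) hnf

end Face

end Vale.Agent.P032.S5.H180
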