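import Vale.Agent.P032.S5.H180.FzN
import Vale.Agent.P032.S5.H830.StateX
import Vale.Agent.P032.S5.Lam

/-!
# P032, carriers: the odd ring at a base with at most three colours on the circle
-/

open Set Filter Topology Metric

noncomputable section

namespace Vale.Agent.P032.S5.H180

open Vale.Agent.P032.Six Vale.Agent.P032.S5.H783 Vale.Agent.P032.H180

variable {U : Fin 6 → Set ℂ} {T : ℂ → Set (Fin 6)} {v : ℂ} {F : Set (Fin 6)}

theorem inj_three {c d e : Fin 6} (hcd : c ≠ d) (hde : d ≠ e) (hce : c ≠ e) :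
    Function.Injective (![c, d, e] : Fin 3 → Fin 6) := by
  intro i j hij
  fin_cases i <;> fin_cases j <;> simp_all

theorem col_three {c d e : Fin 6} (hcov : ∀ i, i ∉ F ↔ i = c ∨ i = d ∨ i = e) (i : Fin 6) :
    i ∉ F ↔ ∃ l, i = (![c, d, e] : Fin 3 → Fin 6) l := by
  rw [hcov]
  constructor
  · rintro (rfl | rfl | rfl)
    · exact ⟨0, rfl⟩
    · exact ⟨1, rfl⟩
    · exact ⟨2, rfl⟩
  · rintro ⟨l, rfl⟩
    fin_cases l
    · exact Or.inl rfl
    · exact Or.inr (Or.inl rfl)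
    · exact Or.inr (Or.inr rfl)

/-- the face of 286's interface -/
theorem face_iff : Vale.Agent.P032.S5.Face T v F ↔ Face T v F := by
  constructor
  · rintro ⟨h3, hs, ho⟩
    exact ⟨hs, h3, fun y hy => by
      obtain ⟨i, hi, hi'⟩ := Set.not_subset.1 (ho y hy)
      exact ⟨i, hi, hi'⟩⟩
  · intro f
    refine ⟨f.three, f.sub, fun y hy hsub => ?_⟩
    obtain ⟨i, hi, hi'⟩ := f.out y hy
    exact hi' (hsub hi)

/-- a clean base: a real three-point or a virtual face of a harmless four-point, with at most three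
colours on the circle -/
structure CBase (T : ℂ → Set (Fin 6)) (v : ℂ) (F : Set (Fin 6)) : Prop extends Face T v F where
  le : ∀ y, dist y v = 1 → (T y).ncard ≤ 3
  harm : (T v).ncard ≤ 3 ∨ ∃ a b, a ∈ F ∧ b ∉ F ∧ T v = insert b F ∧
    ∀ y, dist y v = 1 → T y ⊆ T v → a ∈ T y ∧ b ∈ T y

theorem CBase.not_frz (h : Irr U T) (f : CBase T v F) {c d e : Fin 6}
    (hcov : ∀ i, i ∉ F ↔ i = c ∨ i = d ∨ i = e) (hcd : c ≠ d) (hde : d ≠ e) (hce : c ≠ e) :
    ¬ Frz v T ![c, d, e] := by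
  rcases f.harm with h3 | ⟨a, b, ha, hb, hv, harm⟩
  · have heq : F = T v := Set.eq_of_subset_of_ncard_le f.sub (by rw [f.three]; exact h3)
      (Set.toFinite _)
    exact Fz.not_frz_real h (by rw [← heq]; exact f.three) f.le
      (by rw [← heq]; exact col_three hcov) (inj_three hcd hde hce)
  · exact Fz.not_frz_virtual h f.toFace hb ha hv harm f.le (col_three hcov)
      (inj_three hcd hde hce)

/-- **The odd ring at a clean base**, fine sequences -/
theorem CBase.odd' (h : Irr U T) (f : CBase T v F) {c d : Fin 6} (hc : c ∉ F) (hd : d ∉ F)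
    (hcd : c ≠ d) :
    ∃ δ > 0, ∀ (n : ℕ) (s : ℕ → ℝ) (lab : ℕ → Fin 6), (∀ k ≤ n, s k ∈ Icc (0 : ℝ) 6) → s 0 = 0 →
      s n = 6 → (∀ k < n, |s k - s (k + 1)| < δ) →
      (∀ k ≤ n, lab k ∈ T (Vale.Agent.P032.H180.pt v (s k)) ∧ lab k ∉ F) → lab n = lab 0 →
      ∑ k ∈ Finset.range n, eps (lab k) (lab (k + 1)) {c, d} = 1 := by
  obtain ⟨e, hce, hde, hcov⟩ := exists_compl f.three hc hd hcd
  exact f.toFace.odd' h f.le hcov hcd hde hce (f.not_frz h hcov hcd hde hce)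

/-- **The odd ring at a clean base**, polar form -/
theorem CBase.odd (h : Irr U T) (f : CBase T v F) {c d : Fin 6} (hc : c ∉ F) (hd : d ∉ F)
    (hcd : c ≠ d) :
    ∃ N : ℕ, ∀ n : ℕ, N ≤ n → ∀ lab : ℕ → Fin 6,
      (∀ k ≤ n, lab k ∈ T (v + cis (2 * Real.pi * k / n)) ∧ lab k ∉ F) → lab n = lab 0 →
      ∑ k ∈ Finset.range n, eps (lab k) (lab (k + 1)) {c, d} = 1 := by
  obtain ⟨e, hce, hde, hcov⟩ := exists_compl f.three hc hd hcd
  exact f.toFace.odd h f.le hcov hcd hde hce (f.not_frz h hcov hcd hde hce)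

/-- the ring of `Hm.windK` (223) -/
theorem CBase.ring_pt (h : Irr U T) (f : CBase T v F) {d e : Fin 6} (hd : d ∉ F) (he : e ∉ F)
    (hde : d ≠ e) : ∀ᶠ j : ℕ in atTop, ∀ l : ℕ → Fin 6, l (6 * 2 ^ j) = l 0 →
      (∀ k ≤ 6 * 2 ^ j, l k ∈ T (Vale.Agent.P032.S5.pt v j (2 ^ j) k) ∧ l k ∉ F) →
      ∑ k ∈ Finset.range (6 * 2 ^ j), eps (l k) (l (k + 1)) {d, e} = 1 := by
  obtain ⟨N, hN⟩ := f.odd h hd he hde
  filter_upwards [eventually_ge_atTop N] with j hj l hper hl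
  have hn : N ≤ 6 * 2 ^ j := by
    have h1 : j < 2 ^ j := Nat.lt_two_pow_self
    omega
  refine hN _ hn l (fun k hk => ?_) hper
  have h2 := hl k hk
  have e1 : Vale.Agent.P032.S5.pt v j (2 ^ j) k =
      v + cis (2 * Real.pi * k / ((6 * 2 ^ j : ℕ) : ℝ)) := by
    have hp : (2 : ℝ) ^ j ≠ 0 := by positivity
    have e2 : (((2 ^ j : ℕ) : ℝ) / 2 ^ j : ℝ) = 1 := by
      push_cast
      field_simp
    have e3 : (2 * Real.pi * k / ((6 * 2 ^ j : ℕ) : ℝ) : ℝ) = Real.pi / 3 * k / 2 ^ j := by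
      push_cast
      field_simp
      ring
    unfold Vale.Agent.P032.S5.pt cis
    rw [e2, e3]
    simp
  rw [e1] at h2
  exact h2

/-- the ring of `cech_end` -/
theorem CBase.ring_cech (h : Irr U T) (f : CBase T v F) {d e : Fin 6} (hd : d ∉ F) (he : e ∉ F)
    (hde : d ≠ e) : ∃ N : ℕ, ∀ n, N ≤ n → ∀ l : ℕ → Fin 6, (∀ k, l (k + n) = l k) →
      (∀ k : ℕ, l k ∈ T (v + cis (2 * Real.pi * k / n))) → (∀ k, l k ∉ F) →
      ∑ k ∈ Finset.range n, (if ({l k, l (k + 1)} : Finset (Fin 6)) = {d, e} then 1 else 0) =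
        (1 : ZMod 2) := by
  obtain ⟨N, hN⟩ := f.odd h hd he hde
  refine ⟨N, fun n hn l hper hl hF => ?_⟩
  refine Eq.trans (Finset.sum_congr rfl fun k _ => ?_)
    (hN n hn l (fun k _ => ⟨hl k, hF k⟩) (by simpa using hper 0))
  unfold eps
  by_cases hk : l k = l (k + 1)
  · rw [if_neg, if_neg]
    · exact fun h5 => h5.1 hk
    · rw [hk]
      intro h5
      have h6 : d ∈ ({l (k + 1), l (k + 1)} : Finset (Fin 6)) := by rw [h5]; simp
      have h7 : e ∈ ({l (k + 1), l (k + 1)} : Finset (Fin 6)) := by rw [h5]; simp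
      simp only [Finset.mem_insert, Finset.mem_singleton, or_self] at h6 h7
      exact hde (h6.trans h7.symm)
  · by_cases h5 : ({l k, l (k + 1)} : Finset (Fin 6)) = {d, e}
    · rw [if_pos h5, if_pos ⟨hk, h5.symm⟩]
    · rw [if_neg h5, if_neg fun h6 => h5 h6.2.symm]

end Vale.Agent.P032.S5.H180
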