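import Vale.Agent.P032.H180.Ring

/-!
# P032: the hexagon count with full times

As `H180/Wind.lean`, but at some times `Q t` may be everything; at such a time the labels form a
tree `r - 1, r, r + 1` with the apex `r = r t`, and the two labels different from the apex do not
occur together near `t` outside the full times.
-/

open Set Filter Topology

noncomputable section

namespace Vale.Agent.P032.H180

/-- the essential labels: the apex at a full time -/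
def Qt (Q : ℝ → Set (Fin 3)) (r : ℝ → Fin 3) (t : ℝ) : Set (Fin 3) :=
  {l | l ∈ Q t ∧ (Q t = univ → l = r t)}

open Classical in
/-- differences of labels -/
def phz (Q : ℝ → Set (Fin 3)) (r : ℝ → Fin 3) (t : ℝ) (i j : Fin 3) : ℤ :=
  if Q t = univ then dz (r t) j - dz (r t) i else dz i j

structure HexZ (Q : ℝ → Set (Fin 3)) (r : ℝ → Fin 3) : Prop where
  per : ∀ t, Q (t + 6) = Q t
  rper : ∀ t, r (t + 6) = r t
  ne : ∀ t, (Q t).Nonempty
  usc : ∀ t, ∀ᶠ s in 𝓝 t, Q s ⊆ Q t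
  lay : ∀ t, Q t = univ → ∀ᶠ s in 𝓝 t, (Q s = univ ∧ r s = r t) ∨
    (Q s ≠ univ ∧ ∀ i ∈ Q s, ∀ j ∈ Q s, i = r t ∨ j = r t ∨ i = j)
  inc : ∀ t, ¬ Qt Q r t ⊆ Qt Q r (t + 1)
  inc' : ∀ t, ¬ Qt Q r (t + 1) ⊆ Qt Q r t
  nbad : ∀ t, Q t = univ → Q (t + 1) = univ →
    ∀ᶠ s in 𝓝 t, ¬ (Q s = {r (t + 1)} ∧ Q (s + 1) = {r t})

variable {Q : ℝ → Set (Fin 3)} {r : ℝ → Fin 3}

theorem Qt_of_ne {t : ℝ} (h : Q t ≠ univ) : Qt Q r t = Q t := by
  ext l
  exact ⟨fun hl => hl.1, fun hl => ⟨hl, fun h1 => absurd h1 h⟩⟩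

theorem Qt_of_eq {t : ℝ} (h : Q t = univ) : Qt Q r t = {r t} := by
  ext l
  constructor
  · exact fun hl => hl.2 h
  · rintro rfl
    exact ⟨by rw [h]; exact mem_univ _, fun _ => rfl⟩

theorem univ_of_three {P : Set (Fin 3)} {i j l : Fin 3} (hi : i ∈ P) (hj : j ∈ P) (hl : l ∈ P)
    (h : i ≠ j ∧ j ≠ l ∧ i ≠ l) : P = univ := by
  rw [Set.eq_univ_iff_forall]
  intro m
  have : m = i ∨ m = j ∨ m = l := by
    obtain ⟨h1, h2, h3⟩ := h
    revert h1 h2 h3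
    clear hi hj hl
    revert i j l m
    decide
  rcases this with rfl | rfl | rfl <;> assumption

theorem dz_tree {r i j : Fin 3} (h : i = r ∨ j = r ∨ i = j) : dz r j - dz r i = dz i j := by
  revert r i j; unfold dz; decide

theorem phz_tree {t : ℝ} {i j : Fin 3} (h : i = r t ∨ j = r t ∨ i = j) :
    phz Q r t i j = dz i j := by
  unfold phz
  split_ifs
  · exact dz_tree h
  · rfl

theorem HexZ.coc (_h : HexZ Q r) {t : ℝ} {i j l : Fin 3} (hi : i ∈ Q t) (hj : j ∈ Q t)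
    (hl : l ∈ Q t) : phz Q r t i j + phz Q r t j l = phz Q r t i l := by
  unfold phz
  split_ifs with h1
  · ring
  · exact dz_coc _ _ _ fun h2 => h1 (univ_of_three hi hj hl h2)

theorem HexZ.floc (h : HexZ Q r) (t : ℝ) : ∀ᶠ s in 𝓝 t, Q s ⊆ Q t ∧
    ∀ i ∈ Q s, ∀ j ∈ Q s, phz Q r s i j = phz Q r t i j := by
  by_cases ht : Q t = univ
  · filter_upwards [h.usc t, h.lay t ht] with s h1 h2
    refine ⟨h1, fun i hi j hj => ?_⟩
    rcases h2 with ⟨h2, h3⟩ | ⟨h2, h3⟩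
    · unfold phz
      rw [if_pos h2, if_pos ht, h3]
    · rw [phz_tree (h3 i hi j hj)]
      unfold phz
      rw [if_neg h2]
  · filter_upwards [h.usc t] with s h1
    refine ⟨h1, fun i hi j hj => ?_⟩
    have h2 : Q s ≠ univ := fun h2 => ht (Set.univ_subset_iff.1 (h2 ▸ h1))
    unfold phz
    rw [if_neg h2, if_neg ht]

theorem HexZ.tor (h : HexZ Q r) (B : Set ℝ) : Tor B Q (phz Q r) :=
  ⟨fun t _ => h.ne t, fun _ _ _ hi _ hj _ hl => h.coc hi hj hl,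
    fun t _ => mem_nhdsWithin_of_mem_nhds (h.floc t)⟩

theorem phz_cast (t : ℝ) (i j : Fin 3) :
    ((phz Q r t i j : ℤ) : ZMod 3) = ((j : ℕ) : ZMod 3) - ((i : ℕ) : ZMod 3) := by
  unfold phz
  split_ifs
  · push_cast
    rw [dz_cast, dz_cast]
    ring
  · exact dz_cast i j

/-- the integer lift -/
theorem HexZ.lift (h : HexZ Q r) : ∃ ℓ : ℝ → Fin 3 → ℤ,
    Sec (Icc (0 : ℝ) 12) Q (phz Q r) ℓ ∧
      ∀ t ∈ Icc (0 : ℝ) 12, ∀ i ∈ Q t, (3 : ℤ) ∣ ℓ t i - (i : ℕ) := by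
  obtain ⟨ℓ, hℓ⟩ := interval (by norm_num) (h.tor (Icc (0 : ℝ) 12))
  have h3 : Sec (Icc (0 : ℝ) 12) Q (fun t i j => ((phz Q r t i j : ℤ) : ZMod 3))
      fun t i => (ℓ t i : ZMod 3) := by
    refine ⟨fun t ht i hi j hj => ?_, fun t ht => ?_⟩
    · rw [hℓ.diff t ht i hi j hj]; push_cast; rfl
    · filter_upwards [hℓ.loc t ht] with s hs i hi
      rw [hs i hi]
  have h3' : Sec (Icc (0 : ℝ) 12) Q (fun t i j => ((phz Q r t i j : ℤ) : ZMod 3))
      fun _ i => ((i : ℕ) : ZMod 3) :=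
    ⟨fun t _ i _ j _ => phz_cast t i j, fun _ _ => Eventually.of_forall fun _ _ _ => rfl⟩
  have ht3 : Tor (Icc (0 : ℝ) 12) Q (fun t i j => ((phz Q r t i j : ℤ) : ZMod 3)) := by
    have h0 := h.tor (Icc (0 : ℝ) 12)
    refine ⟨h0.ne, fun t ht i hi j hj l hl => ?_, fun t ht => ?_⟩
    · rw [← h0.coc t ht i hi j hj l hl]
      push_cast
      rfl
    · filter_upwards [h0.loc t ht] with s hs
      refine ⟨hs.1, fun i hi j hj => ?_⟩
      rw [hs.2 i hi j hj]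
  obtain ⟨c, hc⟩ := Sec.unique ht3 isPreconnected_Icc h3 h3'
  refine ⟨fun t i => ℓ t i + (-(c.val : ℤ)), hℓ.add _, fun t ht i hi => ?_⟩
  have h1 := hc t ht i hi
  have h2 : ((ℓ t i + (-(c.val : ℤ)) - ((i : ℕ) : ℤ) : ℤ) : ZMod 3) = 0 := by
    push_cast
    rw [h1, ZMod.natCast_zmod_val]
    ring
  exact_mod_cast (ZMod.intCast_zmod_eq_zero_iff_dvd _ 3).1 h2

theorem HexZ.pair (h : HexZ Q r) (t : ℝ) : ∃ i j, i ∈ Qt Q r t ∧ j ∈ Qt Q r t ∧
    ∀ l ∈ Qt Q r t, l = i ∨ l = j := by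
  by_cases ht : Q t = univ
  · rw [Qt_of_eq ht]
    exact ⟨r t, r t, rfl, rfl, fun l hl => Or.inl hl⟩
  · rw [Qt_of_ne ht]
    obtain ⟨i, hi⟩ := h.ne t
    by_cases hex : ∃ j ∈ Q t, j ≠ i
    · obtain ⟨j, hj, hji⟩ := hex
      refine ⟨i, j, hi, hj, fun l hl => ?_⟩
      by_contra hcon
      push Not at hcon
      exact ht (univ_of_three hi hj hl ⟨hji.symm, hcon.2.symm, hcon.1.symm⟩)
    · push Not at hex
      exact ⟨i, i, hi, hi, fun l hl => Or.inl (hex l hl)⟩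

theorem dz_one {r l : Fin 3} (h : dz r l = 1) : l = r + 1 := by
  revert r l; unfold dz; decide

theorem dz_neg {r l : Fin 3} (h : dz r l = -1) : l = r + 2 := by
  revert r l; unfold dz; decide

/-- the jumps of the double mean -/
structure Jmp (Q : ℝ → Set (Fin 3)) (r : ℝ → Fin 3) (M : ℝ → ℤ) (s t : ℝ) : Prop where
  two : |M s - M t| ≤ 2
  one : Q t ≠ univ → |M s - M t| ≤ 1
  pos : M s - M t = 2 → Q s = {r t + 1}
  neg : M s - M t = -2 → Q s = {r t + 2}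

theorem HexZ.exM (h : HexZ Q r) : ∃ (ℓ : ℝ → Fin 3 → ℤ) (M : ℝ → ℤ),
    Sec (Icc (0 : ℝ) 12) Q (phz Q r) ℓ ∧
      (∀ t ∈ Icc (0 : ℝ) 12, ∀ i ∈ Q t, (3 : ℤ) ∣ ℓ t i - (i : ℕ)) ∧
      (∀ t ∈ Icc (0 : ℝ) 12, ∀ l : Fin 3, l ∈ Qt Q r t ↔ Res (M t - 2 * (l : ℕ))) ∧
      (∀ t ∈ Icc (0 : ℝ) 12, ∀ᶠ s in 𝓝[Icc (0 : ℝ) 12] t, Jmp Q r M s t) ∧
      ∀ t ∈ Icc (0 : ℝ) 12, ∀ i ∈ Qt Q r t, |M t - 2 * ℓ t i| ≤ 1 := by
  obtain ⟨ℓ, hℓ, hd⟩ := h.lift
  choose I J hI hJ hIJ using h.pair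
  have hdz : ∀ t, phz Q r t (I t) (J t) = dz (I t) (J t) := by
    intro t
    by_cases ht : Q t = univ
    · exact phz_tree (Or.inl ((hI t).2 ht))
    · unfold phz
      rw [if_neg ht]
  refine ⟨ℓ, fun t => ℓ t (I t) + ℓ t (J t), hℓ, hd, fun t ht l => ?_, fun t ht => ?_,
    fun t ht i hi => ?_⟩
  · have h1 := mem_iff_mod (hd t ht _ (hI t).1)
      ((hℓ.diff t ht _ (hI t).1 _ (hJ t).1).symm.trans (hdz t)) l
    unfold Res
    rw [← h1]
    exact ⟨hIJ t l, fun h2 => by rcases h2 with rfl | rfl; exacts [hI t, hJ t]⟩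
  · by_cases htu : Q t = univ
    · have hIt := (hI t).2 htu
      have hJt := (hJ t).2 htu
      filter_upwards [hℓ.loc t ht, mem_nhdsWithin_of_mem_nhds (h.lay t htu), self_mem_nhdsWithin]
        with s hs hK hsB
      have e1 := hs _ (hI s).1
      have e2 := hs _ (hJ s).1
      have hmem : ∀ l, l ∈ Q t := fun l => by rw [htu]; exact mem_univ l
      have e3 : ∀ l, ℓ t l - ℓ t (r t) = dz (r t) l := fun l => by
        rw [← hℓ.diff t ht (r t) (hmem _) l (hmem _), phz_tree (Or.inl rfl)]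
      have e4 := e3 (I s)
      have e5 := e3 (J s)
      have a1 := abs_le.1 (abs_dz (r t) (I s))
      have a2 := abs_le.1 (abs_dz (r t) (J s))
      have hM : ℓ s (I s) + ℓ s (J s) - (ℓ t (I t) + ℓ t (J t)) =
          dz (r t) (I s) + dz (r t) (J s) := by
        rw [e1, e2, hIt, hJt, ← e4, ← e5]; ring
      rcases hK with ⟨k1, k2⟩ | ⟨k1, k2⟩
      · have hIs := (hI s).2 k1
        have hJs := (hJ s).2 k1
        have hz : ℓ s (I s) + ℓ s (J s) - (ℓ t (I t) + ℓ t (J t)) = 0 := by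
          rw [hM, hIs, hJs, k2]
          simp [dz]
        refine ⟨by simp only [hz]; norm_num, fun _ => by simp only [hz]; norm_num,
          fun h1 => ?_, fun h1 => ?_⟩
        · rw [hz] at h1; norm_num at h1
        · rw [hz] at h1; norm_num at h1
      · have hone : ∀ m : Fin 3, I s = m → J s = m → Q s = {m} := by
          intro m h1 h2
          rw [← Qt_of_ne (Q := Q) (r := r) k1]
          ext l
          constructor
          · intro hl
            rcases hIJ s l hl with h3 | h3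
            · exact h3.trans h1
            · exact h3.trans h2
          · rintro rfl
            exact h1 ▸ hI s
        refine ⟨?_, fun h1 => absurd htu h1, fun h1 => ?_, fun h1 => ?_⟩
        · rw [hM, abs_le]
          constructor <;> linarith [a1.1, a1.2, a2.1, a2.2]
        · rw [hM] at h1
          exact hone _ (dz_one (by linarith [a1.2, a2.2])) (dz_one (by linarith [a1.2, a2.2]))
        · rw [hM] at h1
          exact hone _ (dz_neg (by linarith [a1.1, a2.1])) (dz_neg (by linarith [a1.1, a2.1]))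
    · filter_upwards [hℓ.loc t ht, mem_nhdsWithin_of_mem_nhds (h.usc t), self_mem_nhdsWithin]
        with s hs hK hsB
      have e1 := hs _ (hI s).1
      have e2 := hs _ (hJ s).1
      have e3 := hℓ.diff t ht _ (hI t).1 _ (hJ t).1
      rw [hdz] at e3
      have e4 := abs_dz (I t) (J t)
      have hKs : Q s ⊆ Q t := hK
      have hle : |ℓ s (I s) + ℓ s (J s) - (ℓ t (I t) + ℓ t (J t))| ≤ 1 := by
        rw [e1, e2]
        rw [abs_le] at e4 ⊢
        have q1 := hIJ t (I s) (by rw [Qt_of_ne htu]; exact hKs (hI s).1)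
        have q2 := hIJ t (J s) (by rw [Qt_of_ne htu]; exact hKs (hJ s).1)
        rcases q1 with a | a <;> rcases q2 with b | b <;>
          rw [a, b] <;> constructor <;> linarith [e4.1, e4.2]
      have hle' := abs_le.1 hle
      refine ⟨hle.trans (by norm_num), fun _ => hle, fun h1 => ?_, fun h1 => ?_⟩
      · linarith [hle'.2]
      · linarith [hle'.1]
  · have e3 := hℓ.diff t ht _ (hI t).1 _ (hJ t).1
    rw [hdz] at e3
    have e4 := abs_dz (I t) (J t)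
    rw [abs_le] at e4 ⊢
    rcases hIJ t i hi with rfl | rfl <;> constructor <;> simp only <;> linarith [e4.1, e4.2]

/-- the difference of two neighbours keeps its class -/
theorem step_const {m0 m1 n0 n1 : ℤ} (hm : (m1 - m0) % 6 = 2 ∨ (m1 - m0) % 6 = 3 ∨
    (m1 - m0) % 6 = 4) (hn : (n1 - n0) % 6 = 2 ∨ (n1 - n0) % 6 = 3 ∨ (n1 - n0) % 6 = 4)
    (h0 : |n0 - m0| ≤ 2) (h1 : |n1 - m1| ≤ 2)
    (hp : (m1 - m0) % 6 = 2 → n0 - m0 = 2 → n1 - m1 = -2 → False)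
    (hq : (m1 - m0) % 6 = 4 → n0 - m0 = -2 → n1 - m1 = 2 → False) :
    (n1 - n0 - 2) / 6 = (m1 - m0 - 2) / 6 := by
  rw [abs_le] at h0 h1
  by_cases c1 : n0 - m0 = 2 ∧ n1 - m1 = -2
  · rcases hm with hm | hm | hm
    · exact absurd (hp hm c1.1 c1.2) id
    · omega
    · omega
  · by_cases c2 : n0 - m0 = -2 ∧ n1 - m1 = 2
    · rcases hm with hm | hm | hm
      · omega
      · omega
      · exact absurd (hq hm c2.1 c2.2) id
    · have c3 : -3 ≤ (n1 - n0) - (m1 - m0) ∧ (n1 - n0) - (m1 - m0) ≤ 3 := by omega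
      omega

theorem apex_two {a b : Fin 3} {m n : ℤ} (ha : m % 6 = (2 * ((a : ℕ) : ℤ)) % 6)
    (hb : n % 6 = (2 * ((b : ℕ) : ℤ)) % 6) :
    ((n - m) % 6 = 2 → a + 1 = b ∧ b + 2 = a) ∧ ((n - m) % 6 = 4 → a + 2 = b ∧ b + 1 = a) := by
  fin_cases a <;> fin_cases b <;> simp at ha hb ⊢ <;> omega

theorem res_apex {m : ℤ} {a : Fin 3} (h : ∀ l : Fin 3, l = a ↔ Res (m - 2 * (l : ℕ))) :
    m % 6 = (2 * ((a : ℕ) : ℤ)) % 6 := by
  have h0 := h 0
  have h1 := h 1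
  have h2 := h 2
  fin_cases a <;> simp [Res] at h0 h1 h2 ⊢ <;> omega

/-- **The hexagon count with full times.** Frozen, or the winding number is odd. -/
theorem HexZ.dich (h : HexZ Q r) : ∃ ℓ : ℝ → Fin 3 → ℤ, Sec (Icc (0 : ℝ) 12) Q (phz Q r) ℓ ∧
    (∀ t ∈ Icc (0 : ℝ) 12, ∀ i ∈ Q t, (3 : ℤ) ∣ ℓ t i - (i : ℕ)) ∧
    (((∀ t ∈ Icc (0 : ℝ) 6, ∀ l, l ∈ Qt Q r t ↔ l + 1 ∈ Qt Q r (t + 1)) ∨
      ∀ t ∈ Icc (0 : ℝ) 6, ∀ l, l ∈ Qt Q r t ↔ l + 2 ∈ Qt Q r (t + 1)) ∨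
      ∀ i ∈ Qt Q r 0, ((ℓ 6 i + 2) / 3 - (ℓ 0 i + 2) / 3) % 2 = 1) := by
  obtain ⟨ℓ, M, hℓ, hd, hM, hMloc, hMℓ⟩ := h.exM
  refine ⟨ℓ, hℓ, hd, ?_⟩
  have hQ6 : ∀ t, Qt Q r (t + 6) = Qt Q r t := by
    intro t
    unfold Qt
    rw [h.per, h.rper]
  -- steps
  have hE : ∀ t ∈ Icc (0 : ℝ) 11, (M (t + 1) - M t) % 6 = 2 ∨ (M (t + 1) - M t) % 6 = 3 ∨
      (M (t + 1) - M t) % 6 = 4 := by
    intro t ht
    have ht0 : t ∈ Icc (0 : ℝ) 12 := ⟨ht.1, by linarith [ht.2]⟩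
    have ht1 : t + 1 ∈ Icc (0 : ℝ) 12 := ⟨by linarith [ht.1], by linarith [ht.2]⟩
    apply incomparable_mod
    · have := h.inc t
      rw [Set.not_subset] at this
      obtain ⟨l, hl, hl'⟩ := this
      exact ⟨l, (hM t ht0 l).1 hl, fun hc => hl' ((hM _ ht1 l).2 hc)⟩
    · have := h.inc' t
      rw [Set.not_subset] at this
      obtain ⟨l, hl, hl'⟩ := this
      exact ⟨l, (hM _ ht1 l).1 hl, fun hc => hl' ((hM _ ht0 l).2 hc)⟩
  have hEloc : ∀ t ∈ Icc (0 : ℝ) 11, ∀ᶠ s in 𝓝[Icc (0 : ℝ) 11] t,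
      (M (s + 1) - M s - 2) / 6 = (M (t + 1) - M t - 2) / 6 := by
    intro t ht
    have ht0 : t ∈ Icc (0 : ℝ) 12 := ⟨ht.1, by linarith [ht.2]⟩
    have ht1 : t + 1 ∈ Icc (0 : ℝ) 12 := ⟨by linarith [ht.1], by linarith [ht.2]⟩
    have h1 := (tendsto_add_Icc (t := t) (a := 0) (b := 11) (a' := 0) (b' := 12) (c := 1)
      fun s hs => ⟨by linarith [hs.1], by linarith [hs.2]⟩).eventually (hMloc _ ht1)
    have h2 := nhdsWithin_mono t (Icc_subset_Icc le_rfl (by norm_num : (11 : ℝ) ≤ 12))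
      (hMloc t ht0)
    have h3 : ∀ᶠ s in 𝓝[Icc (0 : ℝ) 11] t, Q t = univ → Q (t + 1) = univ →
        ¬ (Q s = {r (t + 1)} ∧ Q (s + 1) = {r t}) := by
      by_cases c1 : Q t = univ
      · by_cases c2 : Q (t + 1) = univ
        · exact mem_nhdsWithin_of_mem_nhds ((h.nbad t c1 c2).mono fun s hs _ _ => hs)
        · exact Eventually.of_forall fun s _ h5 => absurd h5 c2
      · exact Eventually.of_forall fun s h5 => absurd h5 c1
    filter_upwards [h1, h2, h3, self_mem_nhdsWithin] with s hs1 hs2 hs3 hs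
    have hap : ∀ τ ∈ Icc (0 : ℝ) 12, Q τ = univ → M τ % 6 = (2 * ((r τ : ℕ) : ℤ)) % 6 := by
      intro τ hτ hu
      refine res_apex fun l => ?_
      rw [← hM τ hτ l, Qt_of_eq hu]
      rfl
    by_cases c1 : Q t = univ
    · by_cases c2 : Q (t + 1) = univ
      · obtain ⟨q1, q2⟩ := apex_two (hap t ht0 c1) (hap _ ht1 c2)
        refine step_const (hE t ht) (hE s hs) hs2.two hs1.two (fun a1 a2 a3 => ?_)
          fun a1 a2 a3 => ?_
        · refine hs3 c1 c2 ⟨?_, ?_⟩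
          · rw [hs2.pos a2, (q1 a1).1]
          · rw [hs1.neg a3, (q1 a1).2]
        · refine hs3 c1 c2 ⟨?_, ?_⟩
          · rw [hs2.neg a2, (q2 a1).1]
          · rw [hs1.pos a3, (q2 a1).2]
      · have a4 := abs_le.1 (hs1.one c2)
        exact step_const (hE t ht) (hE s hs) hs2.two hs1.two
          (fun a1 a2 a3 => by linarith [a4.1]) (fun a1 a2 a3 => by linarith [a4.2])
    · have a4 := abs_le.1 (hs2.one c1)
      exact step_const (hE t ht) (hE s hs) hs2.two hs1.two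
        (fun a1 a2 a3 => by linarith [a4.2]) (fun a1 a2 a3 => by linarith [a4.1])
  have hN := const_of_loc hEloc
  have hD : ∀ t ∈ Icc (0 : ℝ) 6, (M (t + 6) - M t) % 6 = 0 := by
    intro t ht
    have ht0 : t ∈ Icc (0 : ℝ) 12 := ⟨ht.1, by linarith [ht.2]⟩
    have ht1 : t + 6 ∈ Icc (0 : ℝ) 12 := ⟨by linarith [ht.1], by linarith [ht.2]⟩
    apply eq_mod_of_res
    intro l
    rw [← hM t ht0 l, ← hM _ ht1 l, hQ6]
  have hDloc : ∀ t ∈ Icc (0 : ℝ) 6, ∀ᶠ s in 𝓝[Icc (0 : ℝ) 6] t,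
      M (s + 6) - M s = M (t + 6) - M t := by
    intro t ht
    have ht0 : t ∈ Icc (0 : ℝ) 12 := ⟨ht.1, by linarith [ht.2]⟩
    have ht1 : t + 6 ∈ Icc (0 : ℝ) 12 := ⟨by linarith [ht.1], by linarith [ht.2]⟩
    have h1 := (tendsto_add_Icc (t := t) (a := 0) (b := 6) (a' := 0) (b' := 12) (c := 6)
      fun s hs => ⟨by linarith [hs.1], by linarith [hs.2]⟩).eventually (hMloc _ ht1)
    have h2 := nhdsWithin_mono t (Icc_subset_Icc le_rfl (by norm_num : (6 : ℝ) ≤ 12))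
      (hMloc t ht0)
    filter_upwards [h1, h2, self_mem_nhdsWithin] with s hs1 hs2 hs
    have e1 := hD s hs
    have e2 := hD t ht
    have e3 := abs_le.1 hs1.two
    have e4 := abs_le.1 hs2.two
    omega
  have hW := const_of_loc hDloc
  have z0 : (0 : ℝ) ∈ Icc (0 : ℝ) 12 := ⟨le_rfl, by norm_num⟩
  have z6 : (6 : ℝ) ∈ Icc (0 : ℝ) 12 := ⟨by norm_num, by norm_num⟩
  by_cases hpar : (M 6 - M 0) % 12 = 0
  swap
  · right
    intro i hi
    have hi6 : i ∈ Qt Q r 6 := by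
      have := hQ6 0
      rw [zero_add] at this
      rw [this]; exact hi
    have a0 := hd 0 z0 i hi.1
    have a6 := hd 6 z6 i hi6.1
    have b0 := hMℓ 0 z0 i hi
    have b6 := hMℓ 6 z6 i hi6
    have c0 := hD 0 ⟨le_rfl, by norm_num⟩
    rw [zero_add] at c0
    rw [abs_le] at b0 b6
    obtain ⟨k0, hk0⟩ := a0
    obtain ⟨k6, hk6⟩ := a6
    omega
  left
  have hDt : ∀ t ∈ Icc (0 : ℝ) 6, (M (t + 6) - M t) % 12 = 0 := by
    intro t ht
    rw [hW t ht 0 ⟨le_rfl, by norm_num⟩, zero_add]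
    exact hpar
  -- telescoping
  set N := (M (0 + 1) - M 0 - 2) / 6 with hNdef
  have hr : ∀ t ∈ Icc (0 : ℝ) 11, M (t + 1) - M t = 6 * N + 2 ∨ M (t + 1) - M t = 6 * N + 3 ∨
      M (t + 1) - M t = 6 * N + 4 := by
    intro t ht
    have e1 := hN t ht 0 ⟨le_rfl, by norm_num⟩
    have e2 := hE t ht
    rw [← hNdef] at e1
    omega
  have tele : ∀ t ∈ Icc (0 : ℝ) 6, (M (t + 1) - M t = 6 * N + 2 ∧ M (t + 6) - M t = 36 * N + 12) ∨
      (M (t + 1) - M t = 6 * N + 4 ∧ M (t + 6) - M t = 36 * N + 24) := by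
    intro t ht
    have r0 := hr t ⟨ht.1, by linarith [ht.2]⟩
    have r1 := hr (t + 1) ⟨by linarith [ht.1], by linarith [ht.2]⟩
    have r2 := hr (t + 2) ⟨by linarith [ht.1], by linarith [ht.2]⟩
    have r3 := hr (t + 3) ⟨by linarith [ht.1], by linarith [ht.2]⟩
    have r4 := hr (t + 4) ⟨by linarith [ht.1], by linarith [ht.2]⟩
    have r5 := hr (t + 5) ⟨by linarith [ht.1], by linarith [ht.2]⟩
    have q1 : t + 1 + 1 = t + 2 := by ring
    have q2 : t + 2 + 1 = t + 3 := by ring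
    have q3 : t + 3 + 1 = t + 4 := by ring
    have q4 : t + 4 + 1 = t + 5 := by ring
    have q5 : t + 5 + 1 = t + 6 := by ring
    rw [q1] at r1
    rw [q2] at r2
    rw [q3] at r3
    rw [q4] at r4
    rw [q5] at r5
    exact tele_int r0 r1 r2 r3 r4 r5 (hDt t ht)
  have m1 : ∀ l : Fin 3, (((l + 1 : Fin 3) : ℕ) : ℤ) % 3 = (((l : ℕ) : ℤ) + 1) % 3 := by decide
  have m2 : ∀ l : Fin 3, (((l + 2 : Fin 3) : ℕ) : ℤ) % 3 = (((l : ℕ) : ℤ) + 2) % 3 := by decide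
  have t0 := tele 0 ⟨le_rfl, by norm_num⟩
  rw [zero_add, zero_add] at t0
  have fin : ∀ t ∈ Icc (0 : ℝ) 6, t ∈ Icc (0 : ℝ) 12 ∧ t + 1 ∈ Icc (0 : ℝ) 12 := fun t ht =>
    ⟨⟨ht.1, by linarith [ht.2]⟩, ⟨by linarith [ht.1], by linarith [ht.2]⟩⟩
  have hW0 : ∀ t ∈ Icc (0 : ℝ) 6, M (t + 6) - M t = M 6 - M 0 := by
    intro t ht
    have := hW t ht 0 ⟨le_rfl, by norm_num⟩
    rwa [zero_add] at this
  rcases t0 with t0 | t0
  · left
    intro t ht l
    rw [hM t (fin t ht).1 l, hM _ (fin t ht).2 (l + 1)]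
    refine res_shift (N := N) (c := 1) ?_ (m1 l)
    have e1 := tele t ht
    have e2 := hW0 t ht
    omega
  · right
    intro t ht l
    rw [hM t (fin t ht).1 l, hM _ (fin t ht).2 (l + 2)]
    refine res_shift (N := N) (c := 2) ?_ (m2 l)
    have e1 := tele t ht
    have e2 := hW0 t ht
    omega

theorem f2_comm (i j : Fin 3) : f2 i j = f2 j i := by
  revert i j; unfold f2; decide

theorem f2_self (i : Fin 3) : f2 i i = 0 := by
  revert i; unfold f2; decide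

theorem f2_coc (i j l : Fin 3) (h : ¬ (i ≠ j ∧ j ≠ l ∧ i ≠ l)) : f2 i j + f2 j l = f2 i l := by
  revert i j l; unfold f2; decide

/-- **Ring form.** `K` is the palette of the labels: at a full time only the apex, and a label of
`K t` outside `Q t` is unique and only present if `Q t` is a single label. -/
theorem HexZ.ring_odd (h : HexZ Q r)
    (hnf : ¬ ((∀ t ∈ Icc (0 : ℝ) 6, ∀ l, l ∈ Qt Q r t ↔ l + 1 ∈ Qt Q r (t + 1)) ∨
      ∀ t ∈ Icc (0 : ℝ) 6, ∀ l, l ∈ Qt Q r t ↔ l + 2 ∈ Qt Q r (t + 1)))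
    {K : ℝ → Set (Fin 3)} (hKne : ∀ t, (K t).Nonempty) (hKu : ∀ t, ∀ᶠ s in 𝓝 t, K s ⊆ K t)
    (hK1 : ∀ t, ∀ i ∈ K t, i ∉ Q t → ∃ m, Q t = {m})
    (hK2 : ∀ t, ∀ i ∈ K t, ∀ j ∈ K t, i ∉ Q t → j ∉ Q t → i = j)
    (hK3 : ∀ t, Q t = univ → ∀ i ∈ K t, i = r t) :
    ∃ δ > 0, ∀ (n : ℕ) (s : ℕ → ℝ) (lab : ℕ → Fin 3), (∀ k ≤ n, s k ∈ Icc (0 : ℝ) 6) → s 0 = 0 →
      s n = 6 → (∀ k < n, |s k - s (k + 1)| < δ) → (∀ k ≤ n, lab k ∈ K (s k)) → lab n = lab 0 →
      ∑ k ∈ Finset.range n, f2 (lab k) (lab (k + 1)) = 1 := by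
  classical
  obtain ⟨ℓ, hℓ, hd, hor⟩ := h.dich
  have hor' := hor.resolve_left hnf
  set g : ℝ → Fin 3 → ZMod 2 := fun t i => (((ℓ t i + 2) / 3 : ℤ) : ZMod 2) with hg
  have hf : ∀ t ∈ Icc (0 : ℝ) 12, ∀ i ∈ Q t, ∀ j ∈ Q t, (Q t ≠ univ ∨ i = r t ∨ j = r t ∨ i = j) →
      f2 i j = g t j - g t i := by
    intro t ht i hi j hj hor
    refine f2_lift (hd t ht i hi) ?_
    rw [← hℓ.diff t ht i hi j hj]
    rcases hor with h1 | h1
    · unfold phz
      rw [if_neg h1]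
    · exact phz_tree h1
  -- three labels
  have hthree : ∀ t, ∀ i ∈ K t, ∀ j ∈ K t, ∀ l ∈ K t, ¬ (i ≠ j ∧ j ≠ l ∧ i ≠ l) := by
    intro t i hi j hj l hl h3
    by_cases hu : Q t = univ
    · exact h3.1 ((hK3 t hu i hi).trans (hK3 t hu j hj).symm)
    · by_cases hall : i ∈ Q t ∧ j ∈ Q t ∧ l ∈ Q t
      · exact hu (univ_of_three hall.1 hall.2.1 hall.2.2 h3)
      · obtain ⟨m, hm⟩ : ∃ m, Q t = {m} := by
          by_cases c1 : i ∈ Q t
          · by_cases c2 : j ∈ Q t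
            · exact hK1 t l hl fun c3 => hall ⟨c1, c2, c3⟩
            · exact hK1 t j hj c2
          · exact hK1 t i hi c1
        have hmm : ∀ y ∈ Q t, y = m := fun y hy => by rw [hm] at hy; exact hy
        by_cases c1 : i ∈ Q t
        · by_cases c2 : j ∈ Q t
          · exact h3.1 ((hmm i c1).trans (hmm j c2).symm)
          · by_cases c3 : l ∈ Q t
            · exact h3.2.2 ((hmm i c1).trans (hmm l c3).symm)
            · exact h3.2.1 (hK2 t j hj l hl c2 c3)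
        · by_cases c2 : j ∈ Q t
          · by_cases c3 : l ∈ Q t
            · exact h3.2.1 ((hmm j c2).trans (hmm l c3).symm)
            · exact h3.2.2 (hK2 t i hi l hl c1 c3)
          · exact h3.1 (hK2 t i hi j hj c1 c2)
  have hTor : Tor (Icc (0 : ℝ) 6) K fun _ => f2 :=
    ⟨fun t _ => hKne t, fun t _ i hi j hj l hl => f2_coc _ _ _ (hthree t i hi j hj l hl),
      fun t _ => mem_nhdsWithin_of_mem_nhds ((hKu t).mono fun _ hs => ⟨hs, fun _ _ _ _ => rfl⟩)⟩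
  -- the primitive
  set m : ℝ → Fin 3 := fun t => (h.ne t).some with hm
  have hmQ : ∀ t, m t ∈ Q t := fun t => (h.ne t).some_mem
  set G : ℝ → Fin 3 → ZMod 2 := fun t i => if i ∈ Q t then g t i else g t (m t) + f2 (m t) i
    with hG
  have hG1 : ∀ t i, i ∈ Q t → G t i = g t i := fun t i hi => by simp only [hG, if_pos hi]
  have hG2 : ∀ t i, i ∉ Q t → ∀ m', Q t = {m'} → G t i = g t m' + f2 m' i := by
    intro t i hi m' hm'
    have h1 : m t = m' := by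
      have := hmQ t
      rw [hm'] at this
      exact this
    simp only [hG, if_neg hi, h1]
  have hneg : ∀ a b : ZMod 2, a - b = a + b := by decide
  have two : ∀ a : ZMod 2, a + a = 0 := by decide
  have hSec : Sec (Icc (0 : ℝ) 6) K (fun _ => f2) G := by
    refine ⟨fun t ht i hi j hj => ?_, fun t ht => ?_⟩
    · have ht' : t ∈ Icc (0 : ℝ) 12 := ⟨ht.1, by linarith [ht.2]⟩
      by_cases c1 : i ∈ Q t
      · by_cases c2 : j ∈ Q t
        · rw [hG1 t i c1, hG1 t j c2]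
          refine hf t ht' i c1 j c2 ?_
          by_cases hu : Q t = univ
          · exact Or.inr (Or.inl (hK3 t hu i hi))
          · exact Or.inl hu
        · obtain ⟨m', hm'⟩ := hK1 t j hj c2
          have hi' : i = m' := by rw [hm'] at c1; exact c1
          rw [hG1 t i c1, hG2 t j c2 m' hm', hi']
          ring
      · obtain ⟨m', hm'⟩ := hK1 t i hi c1
        by_cases c2 : j ∈ Q t
        · have hj' : j = m' := by rw [hm'] at c2; exact c2
          rw [hG1 t j c2, hG2 t i c1 m' hm', hj', hneg, f2_comm i m', ← add_assoc, two, zero_add]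
        · rw [hK2 t i hi j hj c1 c2, f2_self, sub_self]
    · have ht' : t ∈ Icc (0 : ℝ) 12 := ⟨ht.1, by linarith [ht.2]⟩
      have h1 := nhdsWithin_mono t (Icc_subset_Icc le_rfl (by norm_num : (6 : ℝ) ≤ 12))
        (hℓ.loc t ht')
      filter_upwards [h1, mem_nhdsWithin_of_mem_nhds (h.usc t),
        mem_nhdsWithin_of_mem_nhds (hKu t)] with s hs hQ hK i hi
      have hgs : ∀ j ∈ Q s, g s j = g t j := fun j hj => by simp only [hg, hs j hj]
      by_cases c1 : i ∈ Q s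
      · rw [hG1 s i c1, hG1 t i (hQ c1), hgs i c1]
      · obtain ⟨m', hm'⟩ := hK1 s i hi c1
        have hm's : m' ∈ Q s := by rw [hm']; rfl
        rw [hG2 s i c1 m' hm', hgs m' hm's]
        by_cases c2 : i ∈ Q t
        · rw [hG1 t i c2]
          have := hf t ht' m' (hQ hm's) i c2 (by
            by_cases hu : Q t = univ
            · exact Or.inr (Or.inr (Or.inl (hK3 t hu i (hK hi))))
            · exact Or.inl hu)
          rw [this]
          ring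
        · obtain ⟨m'', hm''⟩ := hK1 t i (hK hi) c2
          have : m' = m'' := by
            have := hQ hm's
            rw [hm''] at this
            exact this
          rw [hG2 t i c2 m'' hm'', this]
  obtain ⟨δ, hδ, hu⟩ := unif hTor hSec
  refine ⟨δ, hδ, fun n s lab hs s0 sn hst hlab hn => ?_⟩
  have e1 : ∀ k ∈ Finset.range n, f2 (lab k) (lab (k + 1)) =
      G (s (k + 1)) (lab (k + 1)) - G (s k) (lab k) := by
    intro k hk
    have hk' := Finset.mem_range.1 hk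
    exact (hu _ (hs k hk'.le) _ (hs (k + 1) hk') (hst k hk') _ (hlab k hk'.le) _
      (hlab (k + 1) hk')).symm
  rw [Finset.sum_congr rfl e1, Finset.sum_range_sub fun k => G (s k) (lab k)]
  rw [s0, sn, hn]
  have hl0 := hlab 0 (Nat.zero_le n)
  rw [s0] at hl0
  -- the difference over the whole ring
  have hQ6 : Q 6 = Q 0 := by have := h.per 0; rwa [zero_add] at this
  have hr6 : r 6 = r 0 := by have := h.rper 0; rwa [zero_add] at this
  have z0 : (0 : ℝ) ∈ Icc (0 : ℝ) 12 := ⟨le_rfl, by norm_num⟩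
  have z6 : (6 : ℝ) ∈ Icc (0 : ℝ) 12 := ⟨by norm_num, by norm_num⟩
  obtain ⟨i0, -, hi0, -, -⟩ := h.pair 0
  have key : ∀ i ∈ Q 0, g 6 i - g 0 i = 1 := by
    intro i hi
    have b1 := hor' i0 hi0
    have b2 := hℓ.diff 0 z0 i0 hi0.1 i hi
    have b3 := hℓ.diff 6 z6 i0 (by rw [hQ6]; exact hi0.1) i (by rw [hQ6]; exact hi)
    have b4 : phz Q r 6 i0 i = phz Q r 0 i0 i := by
      unfold phz
      rw [hQ6, hr6]
    obtain ⟨k1, c1⟩ := hd 0 z0 i hi
    obtain ⟨k2, c2⟩ := hd 6 z6 i (by rw [hQ6]; exact hi)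
    obtain ⟨k3, c3⟩ := hd 0 z0 i0 hi0.1
    obtain ⟨k4, c4⟩ := hd 6 z6 i0 (by rw [hQ6]; exact hi0.1)
    have b5 : ((ℓ 6 i + 2) / 3 - (ℓ 0 i + 2) / 3) % 2 = 1 := by
      rw [b4, b2] at b3
      have e5 : (ℓ 6 i + 2) / 3 - (ℓ 0 i + 2) / 3 = (ℓ 6 i0 + 2) / 3 - (ℓ 0 i0 + 2) / 3 := by
        have e6 : ℓ 6 i - ℓ 0 i = ℓ 6 i0 - ℓ 0 i0 := by linarith
        have e7 : k2 - k1 = k4 - k3 := by linarith
        have a1 : (ℓ 6 i + 2) / 3 = k2 + (((i : ℕ) : ℤ) + 2) / 3 := by omega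
        have a2 : (ℓ 0 i + 2) / 3 = k1 + (((i : ℕ) : ℤ) + 2) / 3 := by omega
        have a3 : (ℓ 6 i0 + 2) / 3 = k4 + (((i0 : ℕ) : ℤ) + 2) / 3 := by omega
        have a4 : (ℓ 0 i0 + 2) / 3 = k3 + (((i0 : ℕ) : ℤ) + 2) / 3 := by omega
        omega
      rw [e5]
      exact b1
    have e4 : ((((ℓ 6 i + 2) / 3 - (ℓ 0 i + 2) / 3 : ℤ)) : ZMod 2) = 1 := by
      have : (ℓ 6 i + 2) / 3 - (ℓ 0 i + 2) / 3 =
          2 * (((ℓ 6 i + 2) / 3 - (ℓ 0 i + 2) / 3) / 2) + 1 := by omega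
      rw [this]
      push_cast
      have h2 : (2 : ZMod 2) = 0 := rfl
      rw [h2, zero_mul, zero_add]
    push_cast at e4
    simp only [hg]
    exact e4
  by_cases c1 : lab 0 ∈ Q 0
  · rw [hG1 0 _ c1, hG1 6 _ (by rw [hQ6]; exact c1)]
    exact key _ c1
  · obtain ⟨m', hm'⟩ := hK1 0 _ hl0 c1
    rw [hG2 0 _ c1 m' hm', hG2 6 _ (by rw [hQ6]; exact c1) m' (by rw [hQ6]; exact hm')]
    have := key m' (by rw [hm']; rfl)
    rw [add_sub_add_right_eq_sub]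
    exact this

end Vale.Agent.P032.H180
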