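import Vale.Agent.P032.S5.H57.Rules
import Vale.Agent.P032.S5.H205.CompU

/-!
# P032, block CARR: the sixty degree rules at a base with unit pairs of harmless points

`x` is the base, `S` its face; `z`, `p` on the circle about `x` with `dist z p = 1` are harmless
with the broken pairs `A`, `B`.
-/

open Set Filter Topology Metric

noncomputable section

namespace Vale.Agent.P032.S5.H180

open Vale.Agent.P032.Six Vale.Agent.P032.Carr
open Vale.Agent.P032.S5.H57 (not_line arcF no_partner lineF two_out three_of compl_sub)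

variable {U : Fin 6 → Set ℂ} {T : ℂ → Set (Fin 6)} {x z p : ℂ} {S A B : Set (Fin 6)}

/-- partners off the line are impossible: second point at distance less than two -/
theorem no_partner2 (h : Irr U T) {z q w : ℂ} {t : Fin 6} (hqz : dist q z = 1)
    (ht : ∀ᶠ q' in 𝓝[sphere z 1] q, t ∈ T q') (hqw : dist q w = 1) (h0 : w ≠ z)
    (h2 : dist w z < 2) (htw : t ∈ T w) : False := by
  rcases h.mx.partner_line hqz (ht.mono fun q hq => h.sub q hq) hqw (h.sub w htw) with h1 | h1
  · exact h0 h1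
  · have h3 : w - z = 2 * (q - z) := by linear_combination h1
    have h4 : dist w z = 2 := by
      rw [dist_eq_norm, h3, norm_mul, ← dist_eq_norm, hqz]; simp
    linarith

/-- no-layering at a harmless point -/
theorem lay (h : Irr U T) (hp : Harm T p B) : ∀ᶠ w in 𝓝 p, B ⊆ T w → T w = T p := by
  obtain ⟨q, hq, hJ⟩ := hp.arc
  have hqB : T q = B := hJ.self_of_nhdsWithin hq
  filter_upwards [h.no_layer hq, h.nhd p] with w h1 h2 hB
  exact Set.eq_of_subset_of_ncard_le h2 (by rw [hp.card]; exact h1 (by rw [hqB]; exact hB))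
    (Set.toFinite _)

/-- **contact trick** -/
theorem contact_trick (h : Irr U T) (hzx : dist z x = 1) (hpx : dist p x = 1)
    (hpz : dist p z = 1) {m n : Fin 6}
    (hev : ∀ᶠ q in 𝓝[sphere z 1] p, m ∈ T q ∨ n ∈ T q) (hw : ∃ᶠ w in 𝓝 x, T w = {m, n})
    (hp : (T p).ncard ≤ 3 ∨ (Harm T p B ∧
      ∀ᶠ y in 𝓝 p, 4 ≤ (T y).ncard → ∃ B', Harm T y B')) :
    (T p).ncard = 4 ∧ B ⊆ {m, n} := by
  have hxz : dist x z = 1 := by rw [dist_comm]; exact hzx
  -- a good neighbourhood of `p`
  have hN : ∀ᶠ y in 𝓝 p, (dist y z = 1 → m ∈ T y ∨ n ∈ T y) ∧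
      (4 ≤ (T y).ncard → (T p).ncard = 4 ∧ Harm T y B) := by
    have e1 : ∀ᶠ y in 𝓝 p, dist y z = 1 → m ∈ T y ∨ n ∈ T y := by
      have := eventually_nhdsWithin_iff.1 hev
      filter_upwards [this] with y hy hyz
      exact hy (mem_sphere.2 hyz)
    have e2 : ∀ᶠ y in 𝓝 p, 4 ≤ (T y).ncard → (T p).ncard = 4 ∧ Harm T y B := by
      rcases hp with hp | ⟨hp, hpn⟩
      · filter_upwards [h.nhd p] with y hy h4
        have := Set.ncard_le_ncard hy (Set.toFinite _)
        omega
      · filter_upwards [hpn, hp.nhd h] with y hy1 hy2 h4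
        obtain ⟨B', hB'⟩ := hy1 h4
        obtain ⟨-, h6⟩ := hy2 B' hB'
        exact ⟨hp.card, h6 ▸ hB'⟩
    exact e1.and e2
  obtain ⟨N, hNs, hNo, hpN⟩ := _root_.eventually_nhds_iff.1 hN
  have hcross := exists_cross (u := x) (u' := z) (q := p) (by
      intro h1; rw [h1, dist_self] at hxz; norm_num at hxz) hpx hpz (by
      intro h1
      refine not_line (u := z) (v := x) (p := p) (by rw [dist_comm]; exact hxz)
        hpz (Or.inr h1)) (hNo.mem_nhds hpN)
  have hne : ∀ᶠ w in 𝓝 x, w ≠ z ∧ dist w z < 2 := by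
    have h1 : ∀ᶠ w in 𝓝 x, dist w z ∈ Ioo (1 / 2 : ℝ) 2 := by
      have hc : ContinuousAt (fun w : ℂ => dist w z) x := by fun_prop
      exact hc.eventually (Ioo_mem_nhds (by simp only [hxz]; norm_num)
        (by simp only [hxz]; norm_num))
    filter_upwards [h1] with w hw
    refine ⟨fun h2 => ?_, hw.2⟩
    rw [h2, dist_self] at hw
    have := hw.1
    norm_num at this
  obtain ⟨w, hTw, ⟨y, hyN, hyz, hyw⟩, hwz, hw2⟩ := (hw.and_eventually (hcross.and hne)).exists
  have hym : ∀ᶠ q in 𝓝[sphere z 1] y, (m ∈ T q ∨ n ∈ T q) ∧ T q ⊆ T y := by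
    filter_upwards [mem_nhdsWithin_of_mem_nhds (hNo.mem_nhds hyN),
      mem_nhdsWithin_of_mem_nhds (h.nhd y), self_mem_nhdsWithin] with q h1 h2 h3
    exact ⟨(hNs q h1).1 h3, h2⟩
  have hmy : m ∈ T y := by
    by_contra hcon
    refine no_partner2 h hyz (t := n) ?_ hyw hwz hw2 (by rw [hTw]; simp)
    filter_upwards [hym] with q hq
    exact hq.1.resolve_left fun h1 => hcon (hq.2 h1)
  have hny : n ∈ T y := by
    by_contra hcon
    refine no_partner2 h hyz (t := m) ?_ hyw hwz hw2 (by rw [hTw]; simp)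
    filter_upwards [hym] with q hq
    exact hq.1.resolve_right fun h1 => hcon (hq.2 h1)
  have hsub : T w ⊆ T y := by
    rw [hTw]
    rintro i (rfl | rfl) <;> assumption
  have hwy : dist w y = 1 := by rw [dist_comm]; exact hyw
  have h4 : 4 ≤ (T y).ncard := by
    by_contra hcon
    exact h.not_sub hwy (by omega) hsub
  obtain ⟨h5, h6⟩ := (hNs y hyN).2 h4
  refine ⟨h5, ?_⟩
  rw [← hTw]
  exact h6.h1 w hwy hsub

/-- the data at a base -/
structure Bs (U : Fin 6 → Set ℂ) (T : ℂ → Set (Fin 6)) (x : ℂ) (S : Set (Fin 6)) : Prop where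
  irr : Irr U T
  three : S.ncard = 3
  sub : S ⊆ T x
  full : ∀ y, dist y x = 1 → ¬ T y ⊆ S
  /-- the centre is real or harmless and minimal -/
  ctr : T x = S ∨ ∃ D, Harm T x D ∧ ∀ s, s ⊆ T x → s ≠ T x → ¬ ∀ᶠ w in 𝓝 x, Suf U s w

/-- the virtual centre: the broken pair has exactly one colour of the face -/
theorem Bs.virt (b : Bs U T x S) {D : Set (Fin 6)} (hD : Harm T x D) :
    ∃ e c, e ∈ T x ∧ e ∉ S ∧ c ∈ S ∧ D = {e, c} ∧ T x = insert e S := by
  obtain ⟨p, hp, hJ⟩ := hD.arc
  have hpD : T p = D := hJ.self_of_nhdsWithin hp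
  obtain ⟨e, he, heS⟩ := Set.not_subset.1 (b.full p hp)
  rw [hpD] at he
  have heT := hD.sub he
  have hTx : T x = insert e S := by
    symm
    apply Set.eq_of_subset_of_ncard_le (Set.insert_subset heT b.sub) _ (Set.toFinite _)
    rw [Set.ncard_insert_of_notMem heS, b.three, hD.card]
  obtain ⟨c, hce, hDc⟩ := ncard_two_other hD.cardA he
  have hcT : c ∈ T x := hD.sub (by rw [hDc]; simp)
  rw [hTx] at hcT
  exact ⟨e, c, heT, heS, hcT.resolve_left hce, hDc, hTx⟩

/-- **T-rule for two harmless points** -/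
theorem Bs.ruleZZ (b : Bs U T x S) (hzx : dist z x = 1) (hpx : dist p x = 1)
    (hpz : dist p z = 1) (hz : Harm T z A) (hp : Harm T p B)
    (hzn : ∀ᶠ y in 𝓝 z, 4 ≤ (T y).ncard → ∃ B', Harm T y B')
    (hpn : ∀ᶠ y in 𝓝 p, 4 ≤ (T y).ncard → ∃ B', Harm T y B')
    (hA : ∃ a ∈ A, a ∈ S) (hB : ∃ a ∈ B, a ∈ S) (hSz : ¬ Sᶜ ⊆ T z) :
    ¬ (T p \ S ⊆ T z) := by
  intro hsub
  have h := b.irr
  have hxz : dist x z = 1 := by rw [dist_comm]; exact hzx
  have hxp : dist x p = 1 := by rw [dist_comm]; exact hpx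
  have hzp : dist z p = 1 := by rw [dist_comm]; exact hpz
  obtain ⟨m, n, hm, hn, hmS, hnS, hmn⟩ := two_out h b.full hpx hzx hpz hsub
  have hmz := hsub ⟨hm, hmS⟩
  have hnz := hsub ⟨hn, hnS⟩
  -- third colour outside
  obtain ⟨r, hrS, hrz⟩ := Set.not_subset.1 hSz
  have hmr : m ≠ r := fun h1 => hrz (h1 ▸ hmz)
  have hnr : n ≠ r := fun h1 => hrz (h1 ▸ hnz)
  have hc := compl_sub b.three hmS hnS hrS hmn hmr hnr
  have hrp : r ∉ T p := fun h1 => hrz (hsub ⟨h1, hrS⟩)
  have hout : ∀ i, i ∉ S → i = m ∨ i = n ∨ i = r := fun i hi => by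
    have : i ∈ Sᶜ := hi
    rw [hc] at this
    exact this
  -- the colours of `S`
  have hcardp : (T p ∩ S).ncard = 2 := by
    have h1 := Set.ncard_inter_add_ncard_sdiff_eq_ncard (T p) S (Set.toFinite _)
    have h2 : T p \ S = {m, n} := by
      apply Subset.antisymm
      · rintro i ⟨hi, hiS⟩
        rcases hout i hiS with h3 | h3 | h3
        · exact Or.inl h3
        · exact Or.inr h3
        · exact absurd (h3 ▸ hi) hrp
      · rintro i (rfl | rfl)
        · exact ⟨hm, hmS⟩
        · exact ⟨hn, hnS⟩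
    rw [hp.card, h2, Set.ncard_pair hmn] at h1
    omega
  have hcardz : (T z ∩ S).ncard = 2 := by
    have h1 := Set.ncard_inter_add_ncard_sdiff_eq_ncard (T z) S (Set.toFinite _)
    have h2 : T z \ S = {m, n} := by
      apply Subset.antisymm
      · rintro i ⟨hi, hiS⟩
        rcases hout i hiS with h3 | h3 | h3
        · exact Or.inl h3
        · exact Or.inr h3
        · exact absurd (h3 ▸ hi) hrz
      · rintro i (rfl | rfl)
        · exact ⟨hmz, hmS⟩
        · exact ⟨hnz, hnS⟩
    rw [hz.card, h2, Set.ncard_pair hmn] at h1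
    omega
  -- `T p` and `T z` are different
  by_cases hpz' : T p ⊆ T z
  · obtain ⟨a, haA, haS⟩ := hA
    refine no_partner h hpz (t := a) ?_ hpx hzx (b.sub haS)
    filter_upwards [mem_nhdsWithin_of_mem_nhds (h.nhd p), self_mem_nhdsWithin] with q h1 h2
    exact hz.h1 q h2 (h1.trans hpz') haA
  have hzp' : ¬ T z ⊆ T p := fun h1 => hpz'
    (Set.eq_of_subset_of_ncard_le h1 (by rw [hz.card, hp.card]) (Set.toFinite _)).symm.subset
  obtain ⟨g, hgp, hgz⟩ := Set.not_subset.1 hpz'
  obtain ⟨k, hkz, hkp⟩ := Set.not_subset.1 hzp'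
  have hgS : g ∈ S := by
    by_contra h1
    exact hgz (hsub ⟨hgp, h1⟩)
  have hkS : k ∈ S := by
    by_contra h1
    rcases hout k h1 with h3 | h3 | h3
    · exact hkp (h3 ▸ hm)
    · exact hkp (h3 ▸ hn)
    · exact hrz (h3 ▸ hkz)
  have hgk : g ≠ k := fun h1 => hgz (h1 ▸ hkz)
  -- the common colour
  obtain ⟨s, hsg, hTpS⟩ := ncard_two_other hcardp (p := g) ⟨hgp, hgS⟩
  have hs : s ∈ T p ∩ S := by rw [hTpS]; simp
  have hsk : s ≠ k := fun h1 => hkp (h1 ▸ hs.1)
  have hS3 : S = {g, s, k} := by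
    symm
    apply Set.eq_of_subset_of_ncard_le
    · rintro i (rfl | rfl | rfl)
      · exact hgS
      · exact hs.2
      · exact hkS
    · rw [b.three, Set.ncard_insert_of_notMem, Set.ncard_pair hsk]
      rintro (h7 | h7)
      · exact hsg h7.symm
      · exact hgk h7
    · exact Set.toFinite _
  have hsz : s ∈ T z := by
    obtain ⟨s', hs'k, hTzS⟩ := ncard_two_other hcardz (p := k) ⟨hkz, hkS⟩
    have hs' : s' ∈ T z ∩ S := by rw [hTzS]; simp
    have h1 := hs'.2
    rw [hS3] at h1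
    rcases h1 with h1 | h1 | h1
    · exact absurd (h1 ▸ hs'.1) hgz
    · exact h1 ▸ hs'.1
    · exact absurd h1 hs'k
  have hTp : ∀ i ∈ T p, i = g ∨ i ∈ T z := by
    intro i hi
    by_cases hiS : i ∈ S
    · have : i ∈ T p ∩ S := ⟨hi, hiS⟩
      rw [hTpS] at this
      rcases this with h1 | h1
      · exact Or.inl h1
      · exact Or.inr (h1 ▸ hsz)
    · exact Or.inr (hsub ⟨hi, hiS⟩)
  have hTz : ∀ i ∈ T z, i = k ∨ i ∈ T p := by
    intro i hi
    by_cases hiS : i ∈ S
    · rw [hS3] at hiS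
      rcases hiS with h1 | h1 | h1
      · exact absurd (h1 ▸ hi) hgz
      · exact Or.inr (h1 ▸ hs.1)
      · exact Or.inl h1
    · rcases hout i hiS with h3 | h3 | h3
      · exact Or.inr (h3 ▸ hm)
      · exact Or.inr (h3 ▸ hn)
      · exact absurd (h3 ▸ hi) hrz
  -- (1) the broken pairs are common colours
  have key1 : ∀ᶠ q in 𝓝[sphere z 1] p, g ∈ T q ∨ A ⊆ T q := by
    filter_upwards [mem_nhdsWithin_of_mem_nhds (h.nhd p), self_mem_nhdsWithin] with q h1 h2
    by_cases hg : g ∈ T q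
    · exact Or.inl hg
    · refine Or.inr (hz.h1 q h2 fun i hi => ?_)
      rcases hTp i (h1 hi) with h3 | h3
      · exact absurd (h3 ▸ hi) hg
      · exact h3
  have key2 : ∀ᶠ q in 𝓝[sphere p 1] z, k ∈ T q ∨ B ⊆ T q := by
    filter_upwards [mem_nhdsWithin_of_mem_nhds (h.nhd z), self_mem_nhdsWithin] with q h1 h2
    by_cases hg : k ∈ T q
    · exact Or.inl hg
    · refine Or.inr (hp.h1 q h2 fun i hi => ?_)
      rcases hTz i (h1 hi) with h3 | h3
      · exact absurd (h3 ▸ hi) hg
      · exact h3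
  have hkA : k ∉ A := by
    intro hkA
    refine no_partner h hpz (t := g) ?_ hpx hzx (b.sub hgS)
    filter_upwards [key1, mem_nhdsWithin_of_mem_nhds (h.nhd p)] with q h1 h2
    exact h1.resolve_right fun h3 => hkp (h2 (h3 hkA))
  have hgB : g ∉ B := by
    intro hgB
    refine no_partner h hzp (t := k) ?_ hzx hpx (b.sub hkS)
    filter_upwards [key2, mem_nhdsWithin_of_mem_nhds (h.nhd z)] with q h1 h2
    exact h1.resolve_right fun h3 => hgz (h2 (h3 hgB))
  have hsA : s ∈ A := by
    obtain ⟨a, haA, haS⟩ := hA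
    rw [hS3] at haS
    rcases haS with h1 | h1 | h1
    · exact absurd (h1 ▸ hz.sub haA) hgz
    · exact h1 ▸ haA
    · exact absurd (h1 ▸ haA) hkA
  have hsB : s ∈ B := by
    obtain ⟨a, haA, haS⟩ := hB
    rw [hS3] at haS
    rcases haS with h1 | h1 | h1
    · exact absurd (h1 ▸ haA) hgB
    · exact h1 ▸ haA
    · exact absurd (h1 ▸ hp.sub haA) hkp
  obtain ⟨α, hαs, hAs⟩ := ncard_two_other hz.cardA hsA
  obtain ⟨β, hβs, hBs⟩ := ncard_two_other hp.cardA hsB
  have hαA : α ∈ A := by rw [hAs]; simp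
  have hβB : β ∈ B := by rw [hBs]; simp
  -- `α`, `β` are `m` or `n`
  have hα : α ∉ S := by
    intro h1
    rw [hS3] at h1
    rcases h1 with h1 | h1 | h1
    · exact hgz (h1 ▸ hz.sub hαA)
    · exact hαs h1
    · exact hkA (h1 ▸ hαA)
  have hβ : β ∉ S := by
    intro h1
    rw [hS3] at h1
    rcases h1 with h1 | h1 | h1
    · exact hgB (h1 ▸ hβB)
    · exact hβs h1
    · exact hkp (h1 ▸ hp.sub hβB)
  -- same broken pairs
  have hAB : A ≠ B := by
    intro hAB
    refine no_partner h hpz (t := g) ?_ hpx hzx (b.sub hgS)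
    filter_upwards [key1, mem_nhdsWithin_of_mem_nhds (lay h hp)] with q h1 h2
    rcases h1 with h1 | h1
    · exact h1
    · rw [h2 (hAB ▸ h1)]; exact hgp
  by_cases hrx : r ∈ T x
  · -- the contact trick
    obtain ⟨D, hD, hmin⟩ : ∃ D, Harm T x D ∧
        ∀ s, s ⊆ T x → s ≠ T x → ¬ ∀ᶠ w in 𝓝 x, Suf U s w := by
      rcases b.ctr with h1 | h1
      · exact absurd (h1 ▸ hrx) hrS
      · exact h1
    obtain ⟨e, c, he, heS, hcS, hDc, hTx⟩ := b.virt hD
    have hgx := b.sub hgS
    have hkx := b.sub hkS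
    have hsx := b.sub hs.2
    have heg : ∀ i ∈ S, i ≠ e := fun i hi h1 => heS (h1 ▸ hi)
    have hct : (∃ᶠ w in 𝓝 x, T w = {g, s}) ∨ ∃ᶠ w in 𝓝 x, T w = {k, s} := by
      have hcD : c ∈ D := by rw [hDc]; simp
      rw [hS3] at hcS
      rcases hcS with h1 | h1 | h1
      · left
        refine hD.contact h hmin (h1 ▸ hcD) hsx ?_
        rw [hDc, h1]
        rintro (h2 | h2)
        · exact heg s hs.2 h2
        · exact hsg h2
      · left
        have h3 := hD.contact h hmin (h1 ▸ hcD) hgx (by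
          rw [hDc, h1]
          rintro (h2 | h2)
          · exact heg g hgS h2
          · exact hsg h2.symm)
        rwa [Set.pair_comm]
      · right
        refine hD.contact h hmin (h1 ▸ hcD) hsx ?_
        rw [hDc, h1]
        rintro (h2 | h2)
        · exact heg s hs.2 h2
        · exact hsk h2
    rcases hct with hct | hct
    · obtain ⟨-, h1⟩ := contact_trick h hzx hpx hpz (key1.mono fun q hq =>
        hq.imp id fun h2 => h2 hsA) hct (Or.inr ⟨hp, hpn⟩)
      rcases h1 hβB with h2 | h2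
      · exact hgB (h2 ▸ hβB)
      · exact hβs h2
    · obtain ⟨-, h1⟩ := contact_trick h hpx hzx hzp (key2.mono fun q hq =>
        hq.imp id fun h2 => h2 hsB) hct (Or.inr ⟨hz, hzn⟩)
      rcases h1 hαA with h2 | h2
      · exact hkA (h2 ▸ hαA)
      · exact hαs h2
  · -- `T x ⊆ insert k (T p)`
    have hx1 : T x ⊆ insert k (T p) := by
      intro i hi
      by_cases hiS : i ∈ S
      · rw [hS3] at hiS
        rcases hiS with h1 | h1 | h1
        · exact Or.inr (h1 ▸ hgp)
        · exact Or.inr (h1 ▸ hs.1)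
        · exact Or.inl h1
      · rcases hout i hiS with h3 | h3 | h3
        · exact Or.inr (h3 ▸ hm)
        · exact Or.inr (h3 ▸ hn)
        · exact absurd (h3 ▸ hi) hrx
    have hx2 : T x ⊆ insert g (T z) := by
      intro i hi
      rcases hx1 hi with h1 | h1
      · exact Or.inr (h1 ▸ hkz)
      · rcases hTp i h1 with h2 | h2
        · exact Or.inl h2
        · exact Or.inr h2
    -- `β ∈ T x`
    have hβx : β ∈ T x := by
      by_contra hcon
      refine no_partner h hxp (t := k) ?_ (by rw [dist_comm]; exact hzx) hpz hkz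
      filter_upwards [mem_nhdsWithin_of_mem_nhds (h.nhd x), self_mem_nhdsWithin] with q h1 h2
      by_contra hkq
      have h3 : T q ⊆ T p := fun i hi => by
        rcases hx1 (h1 hi) with h4 | h4
        · exact absurd (h4 ▸ hi) hkq
        · exact h4
      exact hcon (h1 (hp.h1 q h2 h3 hβB))
    have hαx : α ∈ T x := by
      by_contra hcon
      refine no_partner h hxz (t := g) ?_ (by rw [dist_comm]; exact hpx) hzp hgp
      filter_upwards [mem_nhdsWithin_of_mem_nhds (h.nhd x), self_mem_nhdsWithin] with q h1 h2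
      by_contra hkq
      have h3 : T q ⊆ T z := fun i hi => by
        rcases hx2 (h1 hi) with h4 | h4
        · exact absurd (h4 ▸ hi) hkq
        · exact h4
      exact hcon (h1 (hz.h1 q h2 h3 hαA))
    have hαβ : α = β := by
      rcases b.ctr with h1 | ⟨D, hD, -⟩
      · exact absurd (h1 ▸ hαx) hα
      · obtain ⟨e, c, he, heS, hcS, hDc, hTx⟩ := b.virt hD
        rw [hTx] at hαx hβx
        rw [hαx.resolve_right hα, hβx.resolve_right hβ]
    exact hAB (by rw [hAs, hBs, hαβ])

/-- **Neighbours of a harmless point of the second kind**: a harmless point which is not of the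
second kind -/
theorem Bs.nbrZZ (b : Bs U T x S) (hzx : dist z x = 1) (hpx : dist p x = 1)
    (hpz : dist p z = 1) (hz : Harm T z A) (hp : Harm T p B)
    (hpn : ∀ᶠ y in 𝓝 p, 4 ≤ (T y).ncard → ∃ B', Harm T y B')
    (hSz : Sᶜ ⊆ T z) (hAS : A ⊆ Sᶜ) (hSp : ¬ Sᶜ ⊆ T p)
    (up1 : T p \ B ⊆ T z → T p \ B = A)
    (up2 : ∀ D, Harm T x D → T x \ D ⊆ T p → T x \ D = B) : T p \ S ⊆ A ∧ A ⊆ T p := by
  have h := b.irr
  have hxz : dist x z = 1 := by rw [dist_comm]; exact hzx
  have hxp : dist x p = 1 := by rw [dist_comm]; exact hpx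
  have hzp : dist z p = 1 := by rw [dist_comm]; exact hpz
  have hsub : T p \ S ⊆ T z := fun i hi => hSz hi.2
  obtain ⟨m, n, hm, hn, hmS, hnS, hmn⟩ := two_out h b.full hpx hzx hpz hsub
  obtain ⟨l, hlS, hlp⟩ := Set.not_subset.1 hSp
  have hml : m ≠ l := fun h1 => hlp (h1 ▸ hm)
  have hnl : n ≠ l := fun h1 => hlp (h1 ▸ hn)
  have hc := compl_sub b.three hmS hnS hlS hmn hml hnl
  have hout : ∀ i, i ∉ S → i = m ∨ i = n ∨ i = l := fun i hi => by
    have : i ∈ Sᶜ := hi
    rw [hc] at this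
    exact this
  -- it is enough that `l ∈ A` is impossible
  by_cases hlA : l ∉ A
  · have hA' : A = {m, n} := by
      apply Set.eq_of_subset_of_ncard_le _ _ (Set.toFinite _)
      · intro i hi
        rcases hout i (hAS hi) with h1 | h1 | h1
        · exact Or.inl h1
        · exact Or.inr h1
        · exact absurd (h1 ▸ hi) hlA
      · rw [hz.cardA, Set.ncard_pair hmn]
    refine ⟨?_, ?_⟩
    · rintro i ⟨hi, hiS⟩
      rw [hA']
      rcases hout i hiS with h1 | h1 | h1
      · exact Or.inl h1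
      · exact Or.inr h1
      · exact absurd (h1 ▸ hi) hlp
    · rw [hA']
      rintro i (rfl | rfl) <;> assumption
  exfalso
  push Not at hlA
  -- `T q ⊆ T z` is impossible near `p` on `S(z)`
  have key : ∀ᶠ q in 𝓝[sphere z 1] p, ¬ T q ⊆ T z := by
    filter_upwards [mem_nhdsWithin_of_mem_nhds (h.nhd p), self_mem_nhdsWithin] with q h1 h2 h3
    exact hlp (h1 (hz.h1 q h2 h3 hlA))
  have hcS : (T p ∩ S).ncard = 2 := by
    have h1 := Set.ncard_inter_add_ncard_sdiff_eq_ncard (T p) S (Set.toFinite _)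
    have h2 : T p \ S = {m, n} := by
      apply Subset.antisymm
      · rintro i ⟨hi, hiS⟩
        rcases hout i hiS with h3 | h3 | h3
        · exact Or.inl h3
        · exact Or.inr h3
        · exact absurd (h3 ▸ hi) hlp
      · rintro i (rfl | rfl)
        · exact ⟨hm, hmS⟩
        · exact ⟨hn, hnS⟩
    rw [hp.card, h2, Set.ncard_pair hmn] at h1
    omega
  have hcz : (T z ∩ S).ncard = 1 := by
    have h1 := Set.ncard_inter_add_ncard_sdiff_eq_ncard (T z) S (Set.toFinite _)
    have h2 : T z \ S = Sᶜ := by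
      apply Subset.antisymm
      · exact fun i hi => hi.2
      · exact fun i hi => ⟨hSz hi, hi⟩
    have h3 : (Sᶜ).ncard = 3 := by rw [Set.ncard_compl, b.three]; simp
    rw [hz.card, h2, h3] at h1
    omega
  obtain ⟨g, hg⟩ := Set.ncard_eq_one.1 hcz
  have hgz : g ∈ T z ∩ S := by rw [hg]; rfl
  obtain ⟨k, j, hkj, hkj'⟩ := Set.ncard_eq_two.1 hcS
  have hk : k ∈ T p ∩ S := by rw [hkj']; simp
  have hj : j ∈ T p ∩ S := by rw [hkj']; simp
  -- colours of `T p` outside `T z` are `k` or `j`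
  have hpz' : ∀ i ∈ T p, i ∉ T z → i = k ∨ i = j := by
    intro i hi hiz
    have hiS : i ∈ S := by
      by_contra h1
      exact hiz (hSz h1)
    have : i ∈ T p ∩ S := ⟨hi, hiS⟩
    rwa [hkj'] at this
  by_cases hgp : g ∈ T p
  · -- one of `k`, `j` is `g`
    have hgk : g = k ∨ g = j := by
      have : g ∈ T p ∩ S := ⟨hgp, hgz.2⟩
      rwa [hkj'] at this
    obtain ⟨k', hk'p, hk'S, hk'g, hk'⟩ : ∃ k', k' ∈ T p ∧ k' ∈ S ∧ k' ≠ g ∧
        ∀ i ∈ T p, i ∉ T z → i = k' := by
      rcases hgk with h1 | h1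
      · refine ⟨j, hj.1, hj.2, fun h2 => hkj (h1 ▸ h2 ▸ rfl), fun i hi hiz => ?_⟩
        rcases hpz' i hi hiz with h2 | h2
        · exact absurd (h2 ▸ h1 ▸ hgz.1) hiz
        · exact h2
      · refine ⟨k, hk.1, hk.2, fun h2 => hkj (h2.trans h1), fun i hi hiz => ?_⟩
        rcases hpz' i hi hiz with h2 | h2
        · exact h2
        · exact absurd (h2 ▸ h1 ▸ hgz.1) hiz
    refine no_partner h hpz (t := k') ?_ hpx hzx (b.sub hk'S)
    filter_upwards [mem_nhdsWithin_of_mem_nhds (h.nhd p), key] with q h1 h2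
    obtain ⟨i, hi, hiz⟩ := Set.not_subset.1 h2
    exact hk' i (h1 hi) hiz ▸ hi
  · have hS3 : S = {g, k, j} := by
      symm
      apply Set.eq_of_subset_of_ncard_le
      · rintro i (rfl | rfl | rfl)
        · exact hgz.2
        · exact hk.2
        · exact hj.2
      · rw [b.three, Set.ncard_insert_of_notMem, Set.ncard_pair hkj]
        rintro (h7 | h7)
        · exact hgp (h7 ▸ hk.1)
        · exact hgp (h7 ▸ hj.1)
      · exact Set.toFinite _
    have hnB : B ≠ {k, j} := by
      intro hB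
      have h1 : T p \ B ⊆ T z := by
        rintro i ⟨hi, hiB⟩
        by_contra hiz
        exact hiB (hB ▸ hpz' i hi hiz)
      have h2 := up1 h1
      have h3 : l ∈ T p \ B := h2 ▸ hlA
      exact hlp h3.1
    -- `B ⊆ {k, j}` is impossible
    have hnB' : ¬ B ⊆ {k, j} := fun h1 => hnB
      (Set.eq_of_subset_of_ncard_le h1 (by rw [hp.cardA, Set.ncard_pair hkj]) (Set.toFinite _))
    have hreal : (∀ i ∈ T x, i ∈ T p → i = k ∨ i = j) → (T x \ T p ⊆ {g}) → False := by
      intro h4 h5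
      refine no_partner h hxp (t := g) ?_ (by rw [dist_comm]; exact hzx) hpz hgz.1
      filter_upwards [mem_nhdsWithin_of_mem_nhds (h.nhd x), self_mem_nhdsWithin] with q h1 h2
      by_contra hgq
      have h3 : T q ⊆ T p := fun i hi => by
        by_contra hip
        exact hgq (h5 ⟨h1 hi, hip⟩ ▸ hi)
      refine hnB' fun i hi => ?_
      exact h4 i (h1 (hp.h1 q h2 h3 hi)) (hp.sub hi)
    rcases b.ctr with h1 | ⟨D, hD, hmin⟩
    · refine hreal (fun i hi hip => ?_) ?_
      · have : i ∈ T p ∩ S := ⟨hip, h1 ▸ hi⟩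
        rwa [hkj'] at this
      · rintro i ⟨hi, hip⟩
        rw [h1, hS3] at hi
        rcases hi with h2 | h2 | h2
        · exact h2
        · exact absurd (h2 ▸ hk.1) hip
        · exact absurd (h2 ▸ hj.1) hip
    · obtain ⟨e, c, he, heS, hcS, hDc, hTx⟩ := b.virt hD
      have hne : ∀ i ∈ S, i ≠ e := fun i hi h1 => heS (h1 ▸ hi)
      have hkey2 : ∀ᶠ q in 𝓝[sphere z 1] p, k ∈ T q ∨ j ∈ T q := by
        filter_upwards [mem_nhdsWithin_of_mem_nhds (h.nhd p), key] with q h1 h2
        obtain ⟨i, hi, hiz⟩ := Set.not_subset.1 h2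
        rcases hpz' i (h1 hi) hiz with h3 | h3
        · exact Or.inl (h3 ▸ hi)
        · exact Or.inr (h3 ▸ hi)
      have hcD : c ∈ D := by rw [hDc]; simp
      by_cases hcg : c = g
      · -- `T x \ D = {k, j} ⊆ T p`
        have h5 : T x \ D = {k, j} := by
          apply Subset.antisymm
          · rintro i ⟨hi, hiD⟩
            rw [hTx] at hi
            rcases hi with h6 | h6
            · exact absurd (by rw [hDc, h6]; simp) hiD
            · rw [hS3] at h6
              rcases h6 with h6 | h6 | h6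
              · exact absurd (h6 ▸ hcg ▸ hcD) hiD
              · exact Or.inl h6
              · exact Or.inr h6
          · have : ∀ i ∈ S, i ≠ g → i ∈ T x \ D := fun i hi hig => by
              refine ⟨b.sub hi, ?_⟩
              rw [hDc]
              rintro (h6 | h6)
              · exact hne i hi h6
              · exact hig (h6.trans hcg)
            rintro i (rfl | rfl)
            · exact this _ hk.2 fun h6 => hgp (h6 ▸ hk.1)
            · exact this _ hj.2 fun h6 => hgp (h6 ▸ hj.1)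
        have h6 := up2 D hD (by
          rw [h5]
          rintro i (rfl | rfl)
          · exact hk.1
          · exact hj.1)
        exact hnB (h6.symm.trans h5)
      · have hct : ∃ᶠ w in 𝓝 x, T w = {k, j} := by
          have hckj : c = k ∨ c = j := by
            rw [hS3] at hcS
            rcases hcS with h6 | h6
            · exact absurd h6 hcg
            · exact h6
          rcases hckj with h6 | h6
          · refine hD.contact h hmin (h6 ▸ hcD) (b.sub hj.2) ?_
            rw [hDc, h6]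
            rintro (h7 | h7)
            · exact hne j hj.2 h7
            · exact hkj h7.symm
          · have h8 := hD.contact h hmin (h6 ▸ hcD) (b.sub hk.2) (by
              rw [hDc, h6]
              rintro (h7 | h7)
              · exact hne k hk.2 h7
              · exact hkj h7)
            rwa [Set.pair_comm]
        exact hnB' (contact_trick h hzx hpx hpz hkey2 hct (Or.inr ⟨hp, hpn⟩)).2

/-- **Two adjacent harmless points of the second kind**: different broken pairs. -/
theorem Bs.ccZZ (b : Bs U T x S) (hzx : dist z x = 1) (hpx : dist p x = 1)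
    (hpz : dist p z = 1) (hz : Harm T z A) (hp : Harm T p B)
    (hSz : Sᶜ ⊆ T z) (hSp : Sᶜ ⊆ T p) (hBS : B ⊆ Sᶜ)
    (up : T z \ A ⊆ T p → T z \ A = B) (hAS : A ⊆ Sᶜ) : A ≠ B := by
  have h := b.irr
  intro hAB
  have h3 : (Sᶜ).ncard = 3 := by rw [Set.ncard_compl, b.three]; simp
  obtain ⟨g, hg, hgS⟩ : ∃ g ∈ T z, g ∈ S := by
    by_contra hcon
    push Not at hcon
    have h5 : T z ⊆ Sᶜ := fun i hi => hcon i hi
    have := Set.ncard_le_ncard h5 (Set.toFinite _)
    rw [hz.card, h3] at this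
    omega
  have hgA : g ∉ A := fun h1 => hAS h1 hgS
  by_cases hgp : T z ⊆ T p
  · have h1 := up (sdiff_subset.trans hgp)
    have h2 : g ∈ T z \ A := ⟨hg, hgA⟩
    rw [h1] at h2
    exact hBS h2 hgS
  · obtain ⟨g', hg', hg'z⟩ : ∃ g' ∈ T p, g' ∉ T z := by
      by_contra hcon
      push Not at hcon
      exact hgp (Set.eq_of_subset_of_ncard_le (fun i hi => hcon i hi)
        (by rw [hz.card, hp.card]) (Set.toFinite _)).symm.subset
    have hg'S : g' ∈ S := by
      by_contra h1
      exact hg'z (hSz h1)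
    have hone : ∀ i ∈ T p, i ∈ S → i = g' := by
      have h4 : (T p ∩ S).ncard = 1 := by
        have h1 := Set.ncard_inter_add_ncard_sdiff_eq_ncard (T p) S (Set.toFinite _)
        have h2 : T p \ S = Sᶜ := by
          apply Subset.antisymm
          · exact fun i hi => hi.2
          · exact fun i hi => ⟨hSp hi, hi⟩
        rw [hp.card, h2, h3] at h1
        omega
      intro i hi hiS
      exact (Set.ncard_le_one (Set.toFinite _)).1 h4.le i ⟨hi, hiS⟩ g' ⟨hg', hg'S⟩
    refine no_partner h hpz (t := g') ?_ hpx hzx (b.sub hg'S)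
    filter_upwards [mem_nhdsWithin_of_mem_nhds (h.nhd p), mem_nhdsWithin_of_mem_nhds (lay h hp),
      self_mem_nhdsWithin] with q h1 h2 h4
    by_contra hcon
    have h5 : T q ⊆ T z := fun i hi => by
      by_cases hiS : i ∈ S
      · exact absurd (hone i (h1 hi) hiS ▸ hi) hcon
      · exact hSz hiS
    have h6 := h2 (hAB ▸ hz.h1 q h4 h5)
    exact hcon (h6 ▸ hg')

end Vale.Agent.P032.S5.H180
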