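import Vale.Agent.P032.S5.H180.RulesH
import Vale.Agent.P032.S5.H180.HexZ
import Vale.Agent.P032.S5.H286.SideC

/-!
# P032, block CARR: bases with unit pairs of harmless points, and their hexagon
-/

open Set Filter Topology Metric

noncomputable section

namespace Vale.Agent.P032.S5.H180

open Vale.Agent.P032.Six Vale.Agent.P032.Carr Vale.Agent.P032.H180
open Vale.Agent.P032.S5.H57 (not_line arcF no_partner lineF two_out three_of compl_sub rule3 ruleTo
  ruleFrom nbrZ)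

variable {U : Fin 6 → Set ℂ} {T : ℂ → Set (Fin 6)} {Z : Set ℂ} {f : ℂ → Set (Fin 6)} {δ₀ : ℝ}
  {x : ℂ} {S : Set (Fin 6)}

/-- a base `(x, S)`: a full face `S` at `x`; harmless points `Z`, unit pairs allowed; no
complementary face on the circle -/
structure RBH (U : Fin 6 → Set ℂ) (T : ℂ → Set (Fin 6)) (Z : Set ℂ) (f : ℂ → Set (Fin 6)) (δ₀ : ℝ)
    (x : ℂ) (S : Set (Fin 6)) : Prop where
  irr : Irr U T
  hm : Hm T Z f δ₀
  three : S.ncard = 3
  sub : S ⊆ T x
  full : ∀ y, dist y x = 1 → ¬ T y ⊆ S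
  le : ∀ y, dist y x = 1 → y ∉ Z → (T y).ncard ≤ 3
  hz : ∀ z ∈ Z, Harm T z (f z)
  opn : ∀ z ∈ Z, ∀ᶠ w in 𝓝 z, 4 ≤ (T w).ncard → w ∈ Z
  ctr : T x = S ∨ (x ∈ Z ∧ ∀ s, s ⊆ T x → s ≠ T x → ¬ ∀ᶠ w in 𝓝 x, Suf U s w)
  up : Up T Z f
  unp : ∀ z ∈ Z, dist z x = 1 → ∃ i, i ∈ T z ∧ i ∉ f z ∧ i ∉ S
  comp : ∀ y, dist y x = 1 → Sᶜ ⊆ T y → ∃ w, dist w y = 1 ∧ T w ⊆ Sᶜ

namespace RBH

theorem c3 (B : RBH U T Z f δ₀ x S) : (Sᶜ).ncard = 3 := by
  rw [Set.ncard_compl, B.three]; simp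

theorem bs (B : RBH U T Z f δ₀ x S) : Bs U T x S :=
  ⟨B.irr, B.three, B.sub, B.full, B.ctr.imp id fun h => ⟨f x, B.hz x h.1, h.2⟩⟩

theorem hn (B : RBH U T Z f δ₀ x S) {z : ℂ} (hz : z ∈ Z) :
    ∀ᶠ y in 𝓝 z, 4 ≤ (T y).ncard → ∃ B', Harm T y B' := by
  filter_upwards [B.opn z hz] with y hy h4
  exact ⟨f y, B.hz y (hy h4)⟩

theorem nc (B : RBH U T Z f δ₀ x S) {y : ℂ} (hy : dist y x = 1) (hs : Sᶜ ⊆ T y) : y ∈ Z := by
  by_contra hyZ
  obtain ⟨w, hw, hwS⟩ := B.comp y hy hs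
  exact B.irr.not_sub hw (B.le y hy hyZ) (hwS.trans hs)

theorem fz (B : RBH U T Z f δ₀ x S) {z : ℂ} (hzx : dist z x = 1)
    (hs : Sᶜ ⊆ T z) : f z ⊆ Sᶜ := by
  obtain ⟨w, hw, hwS⟩ := B.comp z hzx hs
  exact ((B.hz z (B.nc hzx hs)).h1 w hw (hwS.trans hs)).trans hwS

theorem fa (B : RBH U T Z f δ₀ x S) {z : ℂ} (hz : z ∈ Z) (hzx : dist z x = 1)
    (hs : ¬ Sᶜ ⊆ T z) : ∃ a ∈ f z, a ∈ S := by
  by_contra hcon
  push Not at hcon
  obtain ⟨i, hi, hif, hiS⟩ := B.unp z hz hzx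
  have h5 : (insert i (f z)).ncard = 3 := by
    rw [Set.ncard_insert_of_notMem hif, B.hm.two z hz]
  have h7 : insert i (f z) ⊆ Sᶜ := Set.insert_subset hiS fun a ha => hcon a ha
  have h6 : insert i (f z) = Sᶜ := by
    apply Set.eq_of_subset_of_ncard_le h7 _ (Set.toFinite _)
    rw [h5, B.c3]
  apply hs
  rw [← h6]
  exact Set.insert_subset hi (B.hm.fsub z hz)

/-- the sixty degree rule for the palettes `T` -/
theorem rule (B : RBH U T Z f δ₀ x S) {y y' : ℂ} (hy : dist y x = 1) (hy' : dist y' x = 1)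
    (hyy : dist y y' = 1) (h1 : ¬ Sᶜ ⊆ T y) (h2 : ¬ Sᶜ ⊆ T y') : ¬ (T y \ S ⊆ T y') := by
  have hyy' : dist y' y = 1 := by rw [dist_comm]; exact hyy
  by_cases hyZ : y ∈ Z
  · obtain ⟨a, haf, haS⟩ := B.fa hyZ hy h1
    by_cases hy'Z : y' ∈ Z
    · exact B.bs.ruleZZ hy' hy hyy (B.hz y' hy'Z) (B.hz y hyZ) (B.hn hy'Z) (B.hn hyZ)
        (B.fa hy'Z hy' h2) ⟨a, haf, haS⟩ h2
    · exact ruleFrom B.irr B.three B.sub B.full hy' hy hyy' (B.le y' hy' hy'Z)
        (B.hm.fsub y hyZ) (B.hz y hyZ).h1 haf haS h2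
  · by_cases hy'Z : y' ∈ Z
    · obtain ⟨a, haf, haS⟩ := B.fa hy'Z hy' h2
      exact ruleTo B.irr B.sub B.full hy hy' hyy (B.le y hy hyZ)
        (B.hm.fsub y' hy'Z) (B.hz y' hy'Z).h1 haf haS
    · exact rule3 B.irr B.sub B.full hy hy' hyy (B.le y hy hyZ) (B.le y' hy' hy'Z)

theorem nbr (B : RBH U T Z f δ₀ x S) {y z : ℂ} (hzx : dist z x = 1)
    (hs : Sᶜ ⊆ T z) (hy : dist y x = 1) (hyz : dist y z = 1) (hys : ¬ Sᶜ ⊆ T y) :
    T y \ S ⊆ f z ∧ f z ⊆ T y := by
  have hz := B.nc hzx hs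
  by_cases hyZ : y ∈ Z
  · refine B.bs.nbrZZ hzx hy hyz (B.hz z hz) (B.hz y hyZ) (B.hn hyZ) hs (B.fz hzx hs) hys
      (B.up y hyZ z hz hyz) fun D hD => ?_
    have hxZ : x ∈ Z := by
      rcases B.ctr with h1 | h1
      · exfalso
        have := hD.card
        rw [h1, B.three] at this
        norm_num at this
      · exact h1.1
    rw [(B.hz x hxZ).unique hD]
    exact B.up x hxZ y hyZ (by rw [dist_comm]; exact hy)
  · exact nbrZ B.irr B.three B.sub B.full hy hzx hyz (B.le y hy hyZ) (B.hz z hz).h1 hs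
      (B.fz hzx hs) (B.hm.two z hz) hys

theorem cc (B : RBH U T Z f δ₀ x S) {z p : ℂ} (hzx : dist z x = 1) (hs : Sᶜ ⊆ T z)
    (hpx : dist p x = 1) (hps : Sᶜ ⊆ T p) (hpz : dist p z = 1) : f z ≠ f p :=
  B.bs.ccZZ hzx hpx hpz (B.hz z (B.nc hzx hs)) (B.hz p (B.nc hpx hps)) hs hps (B.fz hpx hps)
    (B.up z (B.nc hzx hs) p (B.nc hpx hps) (by rw [dist_comm]; exact hpz)) (B.fz hzx hs)

/-- the apex is the third colour -/
theorem apex (B : RBH U T Z f δ₀ x S) {z : ℂ} (hzx : dist z x = 1) (hs : Sᶜ ⊆ T z) :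
    hp T f S z ∈ T z ∧ hp T f S z ∉ f z ∧ hp T f S z ∉ S ∧
      ∀ i, i ∉ S → i = hp T f S z ∨ i ∈ f z := by
  have hz := B.nc hzx hs
  obtain ⟨h1, h2⟩ := B.hm.apex hz S
  have h3 : hp T f S z ∉ S := pick_avoid (B.unp z hz hzx)
  refine ⟨h1, h2, h3, fun i hi => ?_⟩
  by_contra hcon
  push Not at hcon
  have h4 : insert i (insert (hp T f S z) (f z)) ⊆ Sᶜ :=
    Set.insert_subset hi (Set.insert_subset h3 (B.fz hzx hs))
  have h5 := Set.ncard_le_ncard h4 (Set.toFinite _)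
  rw [B.c3, Set.ncard_insert_of_notMem, Set.ncard_insert_of_notMem h2, B.hm.two z hz] at h5
  · omega
  · rintro (h6 | h6)
    · exact hcon.1 h6
    · exact hcon.2 h6

end RBH

/-- the labels outside the face on the circle about `x` -/
def Qx (T : ℂ → Set (Fin 6)) (x : ℂ) (col : Fin 3 → Fin 6) (t : ℝ) : Set (Fin 3) :=
  {l | col l ∈ T (Vale.Agent.P032.H180.pt x t)}

open Classical in
/-- the label of the apex -/
def rx (T f : ℂ → Set (Fin 6)) (S : Set (Fin 6)) (x : ℂ) (col : Fin 3 → Fin 6) (t : ℝ) : Fin 3 :=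
  if h : ∃ l, hp T f S (Vale.Agent.P032.H180.pt x t) = col l then h.choose else 0

variable {col : Fin 3 → Fin 6}

theorem Qx_univ (hcol : ∀ i, i ∉ S ↔ ∃ l, i = col l) {t : ℝ} :
    Qx T x col t = univ ↔ Sᶜ ⊆ T (Vale.Agent.P032.H180.pt x t) := by
  constructor
  · intro h i hi
    obtain ⟨l, rfl⟩ := (hcol i).1 hi
    have : l ∈ Qx T x col t := by rw [h]; exact mem_univ l
    exact this
  · intro h
    rw [Set.eq_univ_iff_forall]
    intro l
    exact h ((hcol _).2 ⟨l, rfl⟩)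

theorem RBH.rx_spec (B : RBH U T Z f δ₀ x S) (hcol : ∀ i, i ∉ S ↔ ∃ l, i = col l) {t : ℝ}
    (ht : Qx T x col t = univ) : hp T f S (Vale.Agent.P032.H180.pt x t) = col (rx T f S x col t) := by
  have h1 := B.apex (Vale.Agent.P032.H180.dist_pt x t) ((Qx_univ hcol).1 ht)
  have h2 := (hcol _).1 h1.2.2.1
  unfold rx
  rw [dif_pos h2]
  exact h2.choose_spec

theorem usc_pt (hu : ∀ y, ∀ᶠ w in 𝓝 y, T w ⊆ T y) (x : ℂ) (col : Fin 3 → Fin 6) (t : ℝ) :
    ∀ᶠ s in 𝓝 t, Qx T x col s ⊆ Qx T x col t := by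
  have h1 : Tendsto (Vale.Agent.P032.H180.pt x) (𝓝 t) (𝓝 (Vale.Agent.P032.H180.pt x t)) :=
    (continuous_pt x).continuousAt
  filter_upwards [h1.eventually (hu _)] with s hs l hl
  exact hs hl

/-- near a full time -/
theorem RBH.lay (B : RBH U T Z f δ₀ x S) (hcol : ∀ i, i ∉ S ↔ ∃ l, i = col l)
    (hinj : Function.Injective col) {t : ℝ} (ht : Qx T x col t = univ) :
    ∀ᶠ s in 𝓝 t, (Qx T x col s = univ ∧ rx T f S x col s = rx T f S x col t) ∨
      (Qx T x col s ≠ univ ∧ ∀ i ∈ Qx T x col s, ∀ j ∈ Qx T x col s,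
        i = rx T f S x col t ∨ j = rx T f S x col t ∨ i = j) := by
  have hS := (Qx_univ hcol).1 ht
  have hzx := Vale.Agent.P032.H180.dist_pt x t
  have hz := B.nc hzx hS
  have h1 : Tendsto (Vale.Agent.P032.H180.pt x) (𝓝 t) (𝓝 (Vale.Agent.P032.H180.pt x t)) :=
    (continuous_pt x).continuousAt
  filter_upwards [h1.eventually (closedBall_mem_nhds _ B.hm.pos)] with s hs
  have hs' := mem_closedBall.1 hs
  by_cases hsZ : Vale.Agent.P032.H180.pt x s ∈ Z
  · left
    obtain ⟨e1, e2⟩ := B.hm.const _ hz _ hsZ hs'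
    have hsu : Qx T x col s = univ := by
      rw [Qx_univ hcol, e1]
      exact hS
    refine ⟨hsu, hinj ?_⟩
    rw [← B.rx_spec hcol hsu, ← B.rx_spec hcol ht]
    unfold hp
    rw [e1, e2]
  · right
    have hns : ¬ Sᶜ ⊆ T (Vale.Agent.P032.H180.pt x s) := fun h2 =>
      hsZ (B.nc (Vale.Agent.P032.H180.dist_pt x s) h2)
    refine ⟨fun h2 => hns ((Qx_univ hcol).1 h2), fun i hi j hj => ?_⟩
    by_contra hcon
    push Not at hcon
    obtain ⟨hir, hjr, hij⟩ := hcon
    obtain ⟨-, -, -, a4⟩ := B.apex hzx hS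
    have hap := B.rx_spec hcol ht
    have key : ∀ m : Fin 3, m ≠ rx T f S x col t → col m ∈ f (Vale.Agent.P032.H180.pt x t) := by
      intro m hm
      rcases a4 (col m) ((hcol _).2 ⟨m, rfl⟩) with h3 | h3
      · rw [hap] at h3
        exact absurd (hinj h3) hm
      · exact h3
    refine B.hm.forb _ hz _ hs' hsZ ?_
    have h4 : f (Vale.Agent.P032.H180.pt x t) = {col i, col j} := by
      symm
      apply Set.eq_of_subset_of_ncard_le
      · rintro m (rfl | rfl)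
        · exact key i hir
        · exact key j hjr
      · rw [B.hm.two _ hz, Set.ncard_pair fun h => hij (hinj h)]
      · exact Set.toFinite _
    rw [h4]
    rintro m (rfl | rfl)
    · exact hi
    · exact hj

theorem dist_pt_succ (x : ℂ) (t : ℝ) : dist (Vale.Agent.P032.H180.pt x t)
    (Vale.Agent.P032.H180.pt x (t + 1)) = 1 := by
  rw [pt_add_one]
  exact dist_rot _ _ (Vale.Agent.P032.H180.dist_pt x t)

/-- neighbours of a full time -/
theorem RBH.nbrQ (B : RBH U T Z f δ₀ x S) (hcol : ∀ i, i ∉ S ↔ ∃ l, i = col l) {t s : ℝ}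
    (hd : dist (Vale.Agent.P032.H180.pt x s) (Vale.Agent.P032.H180.pt x t) = 1)
    (ht : Qx T x col t = univ) (hs : Qx T x col s ≠ univ) :
    rx T f S x col t ∉ Qx T x col s := by
  intro h1
  have hS := (Qx_univ hcol).1 ht
  have h2 : ¬ Sᶜ ⊆ T (Vale.Agent.P032.H180.pt x s) := fun h3 => hs ((Qx_univ hcol).2 h3)
  obtain ⟨h4, -⟩ := B.nbr (Vale.Agent.P032.H180.dist_pt x t) hS
    (Vale.Agent.P032.H180.dist_pt x s) hd h2
  have h5 := B.rx_spec hcol ht
  have h6 := B.apex (Vale.Agent.P032.H180.dist_pt x t) hS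
  refine h6.2.1 (h4 ⟨?_, h6.2.2.1⟩)
  rw [h5]
  exact h1

/-- incomparability of the essential labels -/
theorem RBH.incQ (B : RBH U T Z f δ₀ x S) (hcol : ∀ i, i ∉ S ↔ ∃ l, i = col l)
    {t s : ℝ}
    (hd : dist (Vale.Agent.P032.H180.pt x s) (Vale.Agent.P032.H180.pt x t) = 1) :
    ¬ Qt (Qx T x col) (rx T f S x col) t ⊆ Qt (Qx T x col) (rx T f S x col) s := by
  have hd' : dist (Vale.Agent.P032.H180.pt x t) (Vale.Agent.P032.H180.pt x s) = 1 := by
    rw [dist_comm]; exact hd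
  have d1 := Vale.Agent.P032.H180.dist_pt x t
  have d2 := Vale.Agent.P032.H180.dist_pt x s
  intro hsub
  by_cases ht : Qx T x col t = univ
  · rw [Qt_of_eq ht] at hsub
    have h1 : rx T f S x col t ∈ Qt (Qx T x col) (rx T f S x col) s := hsub rfl
    by_cases hs : Qx T x col s = univ
    · -- both full
      have h2 := h1.2 hs
      have hS1 := (Qx_univ hcol).1 ht
      have hS2 := (Qx_univ hcol).1 hs
      have h3 := B.cc d1 hS1 d2 hS2 hd
      have h4 : hp T f S (Vale.Agent.P032.H180.pt x t) = hp T f S (Vale.Agent.P032.H180.pt x s) := by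
        rw [B.rx_spec hcol ht, B.rx_spec hcol hs, h2]
      apply h3
      obtain ⟨-, b2, b3, b4⟩ := B.apex d1 hS1
      obtain ⟨-, c2, c3, c4⟩ := B.apex d2 hS2
      apply Set.eq_of_subset_of_ncard_le
      · intro i hi
        rcases c4 i (B.fz d1 hS1 hi) with h5 | h5
        · rw [← h4] at h5
          exact absurd (h5 ▸ hi) b2
        · exact h5
      · rw [B.hm.two _ (B.nc d1 hS1), B.hm.two _ (B.nc d2 hS2)]
      · exact Set.toFinite _
    · exact B.nbrQ hcol hd ht hs h1.1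
  · rw [Qt_of_ne ht] at hsub
    by_cases hs : Qx T x col s = univ
    · rw [Qt_of_eq hs] at hsub
      obtain ⟨i, hi, hiS⟩ := Set.not_subset.1 (B.full _ d1)
      obtain ⟨l, rfl⟩ := (hcol i).1 hiS
      have h1 : l = rx T f S x col s := hsub hi
      exact B.nbrQ hcol hd' hs ht (h1 ▸ hi)
    · rw [Qt_of_ne hs] at hsub
      refine B.rule d1 d2 hd' (fun h => ht ((Qx_univ hcol).2 h))
        (fun h => hs ((Qx_univ hcol).2 h)) ?_
      rintro i ⟨hi, hiS⟩
      obtain ⟨l, rfl⟩ := (hcol i).1 hiS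
      exact hsub hi

theorem pt_shift (x : ℂ) (s θ : ℝ) :
    x + (Vale.Agent.P032.H180.pt x s - x) * cis θ =
      Vale.Agent.P032.H180.pt x (s + 3 * θ / Real.pi) := by
  unfold Vale.Agent.P032.H180.pt cis
  rw [add_sub_cancel_left, ← Complex.exp_add]
  congr 2
  have : (s + 3 * θ / Real.pi) * Real.pi / 3 = s * Real.pi / 3 + θ := by
    field_simp
  rw [this]
  push_cast
  ring

theorem third_label {r0 r1 : Fin 3} (h : r0 ≠ r1) : ∃ l : Fin 3, l ≠ r0 ∧ l ≠ r1 ∧
    ∀ m, m = l ∨ m = r1 ∨ m = r0 := by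
  revert h
  revert r0 r1
  decide

/-- the forbidden solid state: geometric part -/
theorem RBH.solid (B : RBH U T Z f δ₀ x S) (hcol : ∀ i, i ∉ S ↔ ∃ l, i = col l)
    (hinj : Function.Injective col) {s : ℝ} (h0 : Qx T x col s = univ)
    (h1 : Qx T x col (s + 1) = univ) {sg : ℝ} (hsg : sg = 1 ∨ sg = -1) {ρ : ℝ} (hρ : 0 < ρ)
    (hbad : ∀ σ, 0 < σ → σ < ρ → Qx T x col (s + sg * σ) = {rx T f S x col (s + 1)} ∧
      Qx T x col (s + sg * σ + 1) = {rx T f S x col s}) : False := by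
  have hS0 := (Qx_univ hcol).1 h0
  have hS1 := (Qx_univ hcol).1 h1
  have d0 := Vale.Agent.P032.H180.dist_pt x s
  have d1 := Vale.Agent.P032.H180.dist_pt x (s + 1)
  have d01 := dist_pt_succ x s
  have hr : rx T f S x col s ≠ rx T f S x col (s + 1) := by
    intro h2
    refine B.incQ hcol (t := s) (s := s + 1) (by rw [dist_comm]; exact d01) ?_
    rw [Qt_of_eq h0, Qt_of_eq h1, h2]
  obtain ⟨l, hl0, hl1, hl⟩ := third_label hr
  obtain ⟨a1, a2, a3, a4⟩ := B.apex d0 hS0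
  obtain ⟨b1, b2, b3, b4⟩ := B.apex d1 hS1
  have e0 := B.rx_spec hcol h0
  have e1 := B.rx_spec hcol h1
  have hnS : ∀ m, col m ∉ S := fun m => (hcol _).2 ⟨m, rfl⟩
  have hzZ := B.nc d0 hS0
  have hpZ := B.nc d1 hS1
  have hcz := B.hz _ hzZ
  have hcp := B.hz _ hpZ
  -- the colour of the face in `T z`
  obtain ⟨g, hgT, hgS, hgone⟩ : ∃ g, g ∈ T (Vale.Agent.P032.H180.pt x s) ∧ g ∈ S ∧
      ∀ i ∈ T (Vale.Agent.P032.H180.pt x s), i ∈ S → i = g := by
    have h4 : (T (Vale.Agent.P032.H180.pt x s) ∩ S).ncard = 1 := by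
      have h5 := Set.ncard_inter_add_ncard_sdiff_eq_ncard (T (Vale.Agent.P032.H180.pt x s)) S
        (Set.toFinite _)
      have h6 : T (Vale.Agent.P032.H180.pt x s) \ S = Sᶜ := by
        apply Subset.antisymm
        · exact fun i hi => hi.2
        · exact fun i hi => ⟨hS0 hi, hi⟩
      rw [hcz.card, h6, B.c3] at h5
      omega
    obtain ⟨g, hg⟩ := Set.ncard_eq_one.1 h4
    have h5 : g ∈ T (Vale.Agent.P032.H180.pt x s) ∩ S := by rw [hg]; rfl
    exact ⟨g, h5.1, h5.2, fun i hi hiS =>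
      (Set.ncard_le_one (Set.toFinite _)).1 h4.le i ⟨hi, hiS⟩ g h5⟩
  have hTz : T (Vale.Agent.P032.H180.pt x s) ⊆
      {col l, col (rx T f S x col (s + 1)), col (rx T f S x col s), g} := by
    intro i hi
    by_cases hiS : i ∈ S
    · exact Or.inr (Or.inr (Or.inr (hgone i hi hiS)))
    · obtain ⟨m, rfl⟩ := (hcol i).1 hiS
      rcases hl m with h5 | h5 | h5
      · exact Or.inl (by rw [h5])
      · exact Or.inr (Or.inl (by rw [h5]))
      · exact Or.inr (Or.inr (Or.inl (by rw [h5])))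
  have hfz : f (Vale.Agent.P032.H180.pt x s) ⊆ {col l, col (rx T f S x col (s + 1))} := by
    intro i hi
    obtain ⟨m, rfl⟩ := (hcol i).1 (B.fz d0 hS0 hi)
    rcases hl m with h5 | h5 | h5
    · exact Or.inl (by rw [h5])
    · exact Or.inr (by rw [h5]; rfl)
    · exfalso
      rw [h5, ← e0] at hi
      exact a2 hi
  have hfp : col l ∈ f (Vale.Agent.P032.H180.pt x (s + 1)) := by
    rcases b4 (col l) (hnS l) with h5 | h5
    · rw [e1] at h5
      exact absurd (hinj h5) hl1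
    · exact h5
  have hhalf := B.irr.half_a (x := x) d0 d1 d01 (a := col l)
    (b := col (rx T f S x col (s + 1))) (c := col (rx T f S x col s)) (g := g)
    (B.sub hgS) hTz (by
      filter_upwards [Vale.Agent.P032.S5.H180.lay B.irr hcz] with w hw q1 q2
      have h5 : T w = T (Vale.Agent.P032.H180.pt x s) := hw (hfz.trans (by
        rintro i (rfl | rfl) <;> assumption))
      rw [h5]
      exact hgT) (by
      filter_upwards [mem_nhdsWithin_of_mem_nhds (B.irr.nhd (Vale.Agent.P032.H180.pt x s)),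
        self_mem_nhdsWithin] with q q1 q2 q3
      have h5 : T q ⊆ T (Vale.Agent.P032.H180.pt x (s + 1)) := by
        intro i hi
        by_cases hiS : i ∈ S
        · exact absurd (hgone i (q1 hi) hiS ▸ hi) q3
        · exact hS1 hiS
      exact hcp.h1 q q2 h5 hfp) hsg (hS1 (hnS _)) (by
      filter_upwards [Ioo_mem_nhdsGT (show (0 : ℝ) < ρ * Real.pi / 3 by positivity)] with τ hτ
      have hpi := Real.pi_pos
      have q1 := (hbad (3 * τ / Real.pi) (by have := hτ.1; positivity) (by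
        rw [div_lt_iff₀ hpi]; linarith [hτ.2])).2
      have q2 : rx T f S x col s ∈ Qx T x col (s + sg * (3 * τ / Real.pi) + 1) := by
        rw [q1]; rfl
      rw [pt_shift]
      have q3 : s + 1 + 3 * (sg * τ) / Real.pi = s + sg * (3 * τ / Real.pi) + 1 := by ring
      rw [q3]
      exact q2)
  have hpi := Real.pi_pos
  obtain ⟨τ, hτ1, hτ2⟩ := (hhalf.and (Ioo_mem_nhdsGT
    (show (0 : ℝ) < ρ * Real.pi / 3 by positivity))).exists
  have q1 := (hbad (3 * τ / Real.pi) (by have := hτ2.1; positivity) (by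
    rw [div_lt_iff₀ hpi]; linarith [hτ2.2])).1
  rw [pt_shift] at hτ1
  have q3 : s + 3 * (sg * τ) / Real.pi = s + sg * (3 * τ / Real.pi) := by ring
  rw [q3] at hτ1
  have q2 : l ∈ Qx T x col (s + sg * (3 * τ / Real.pi)) := hτ1
  rw [q1] at q2
  exact hl1 q2

theorem eq_singleton_of {P : Set (Fin 3)} {a : Fin 3} (h : P.Nonempty) (hs : P ⊆ {a}) :
    P = {a} := by
  obtain ⟨b, hb⟩ := h
  have := hs hb
  apply Subset.antisymm hs
  rintro _ rfl
  exact this ▸ hb

theorem RBH.neQ (B : RBH U T Z f δ₀ x S) (hcol : ∀ i, i ∉ S ↔ ∃ l, i = col l) (t : ℝ) :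
    (Qx T x col t).Nonempty := by
  obtain ⟨i, hi, hiS⟩ := Set.not_subset.1 (B.full _ (Vale.Agent.P032.H180.dist_pt x t))
  obtain ⟨l, rfl⟩ := (hcol i).1 hiS
  exact ⟨l, hi⟩

/-- the forbidden state does not occur near two adjacent full times -/
theorem RBH.nbad_side (B : RBH U T Z f δ₀ x S) (hcol : ∀ i, i ∉ S ↔ ∃ l, i = col l)
    (hinj : Function.Injective col) {t : ℝ} (h0 : Qx T x col t = univ)
    (h1 : Qx T x col (t + 1) = univ) {sg : ℝ} (hsg : sg = 1 ∨ sg = -1) :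
    ∃ ε > 0, ∀ σ, 0 < σ → σ < ε → ¬ (Qx T x col (t + sg * σ) = {rx T f S x col (t + 1)} ∧
      Qx T x col (t + sg * σ + 1) = {rx T f S x col t}) := by
  have d01 := dist_pt_succ x t
  have hr : rx T f S x col t ≠ rx T f S x col (t + 1) := by
    intro h2
    refine B.incQ hcol (t := t) (s := t + 1) (by rw [dist_comm]; exact d01) ?_
    rw [Qt_of_eq h0, Qt_of_eq h1, h2]
  set r0 := rx T f S x col t with hr0
  set r1 := rx T f S x col (t + 1) with hr1
  obtain ⟨l, hl0, hl1, hl⟩ := third_label hr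
  have L0 := B.lay hcol hinj h0
  have L1 : ∀ᶠ s in 𝓝 t, (Qx T x col (s + 1) = univ ∧ rx T f S x col (s + 1) = r1) ∨
      (Qx T x col (s + 1) ≠ univ ∧ ∀ i ∈ Qx T x col (s + 1), ∀ j ∈ Qx T x col (s + 1),
        i = r1 ∨ j = r1 ∨ i = j) := by
    have hc : Tendsto (fun s : ℝ => s + 1) (𝓝 t) (𝓝 (t + 1)) :=
      (continuous_add_const 1).continuousAt
    exact hc.eventually (B.lay hcol hinj h1)
  obtain ⟨ε, hε, hL⟩ := Metric.eventually_nhds_iff.1 (L0.and L1)
  refine ⟨ε, hε, fun σ₀ hσ₀ hσε hbad₀ => ?_⟩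
  have hsg1 : |sg| = 1 := by rcases hsg with h2 | h2 <;> rw [h2] <;> norm_num
  -- the last time which is not bad
  let bad : ℝ → Prop := fun σ => Qx T x col (t + sg * σ) = {r1} ∧
    Qx T x col (t + sg * σ + 1) = {r0}
  have hopen : ∀ σ, bad σ → ∀ᶠ τ in 𝓝 σ, bad τ := by
    rintro σ ⟨b1, b2⟩
    have c1 : Tendsto (fun τ : ℝ => t + sg * τ) (𝓝 σ) (𝓝 (t + sg * σ)) := by
      have : Continuous fun τ : ℝ => t + sg * τ := by fun_prop
      exact this.continuousAt
    have c2 : Tendsto (fun τ : ℝ => t + sg * τ + 1) (𝓝 σ) (𝓝 (t + sg * σ + 1)) := by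
      have : Continuous fun τ : ℝ => t + sg * τ + 1 := by fun_prop
      exact this.continuousAt
    filter_upwards [c1.eventually (usc_pt B.hm.usc x col _),
      c2.eventually (usc_pt B.hm.usc x col _)] with τ k1 k2
    rw [b1] at k1
    rw [b2] at k2
    exact ⟨eq_singleton_of (B.neQ hcol _) k1, eq_singleton_of (B.neQ hcol _) k2⟩
  have hCc : IsCompact {σ | σ ∈ Icc 0 σ₀ ∧ ¬ bad σ} := by
    refine isCompact_Icc.inter_right (t := {σ | ¬ bad σ}) ?_
    rw [← isOpen_compl_iff, isOpen_iff_mem_nhds]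
    intro σ hσ
    have hσ' : bad σ := by
      by_contra h2
      exact hσ h2
    filter_upwards [hopen σ hσ'] with τ hτ h2
    exact h2 hτ
  have hCne : {σ | σ ∈ Icc 0 σ₀ ∧ ¬ bad σ}.Nonempty := by
    refine ⟨0, ⟨le_rfl, hσ₀.le⟩, fun h2 => ?_⟩
    have h3 := h2.1
    rw [mul_zero, add_zero, h0] at h3
    have h4 : l ∈ (univ : Set (Fin 3)) := mem_univ l
    rw [h3] at h4
    exact hl1 h4
  obtain ⟨a, ⟨⟨ha0, ha1⟩, hab⟩, hmax⟩ := hCc.exists_isMaxOn hCne continuousOn_id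
  have haσ : a < σ₀ := lt_of_le_of_ne ha1 fun h2 => hab (h2 ▸ hbad₀)
  have hall : ∀ σ, a < σ → σ ≤ σ₀ → bad σ := by
    intro σ h2 h3
    by_contra h4
    have := hmax (show σ ∈ {σ | σ ∈ Icc 0 σ₀ ∧ ¬ bad σ} from ⟨⟨ha0.trans h2.le, h3⟩, h4⟩)
    simp only [id] at this
    exact absurd this (not_le.2 h2)
  set s := t + sg * a with hs
  have hst : dist s t < ε := by
    rw [Real.dist_eq, hs, add_sub_cancel_left, abs_mul, hsg1, one_mul, abs_of_nonneg ha0]
    linarith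
  obtain ⟨M0, M1⟩ := hL hst
  -- closure
  have hc1 : r1 ∈ Qx T x col s := by
    have c1 : Tendsto (fun τ : ℝ => t + sg * τ) (𝓝[>] a) (𝓝 s) := by
      have : Continuous fun τ : ℝ => t + sg * τ := by fun_prop
      exact (this.continuousAt (x := a)).mono_left nhdsWithin_le_nhds
    obtain ⟨τ, k1, k2⟩ := ((c1.eventually (usc_pt B.hm.usc x col _)).and
      (Ioo_mem_nhdsGT haσ)).exists
    exact k1 (by rw [(hall τ k2.1 k2.2.le).1]; rfl)
  have hc0 : r0 ∈ Qx T x col (s + 1) := by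
    have c1 : Tendsto (fun τ : ℝ => t + sg * τ + 1) (𝓝[>] a) (𝓝 (s + 1)) := by
      have : Continuous fun τ : ℝ => t + sg * τ + 1 := by fun_prop
      exact (this.continuousAt (x := a)).mono_left nhdsWithin_le_nhds
    obtain ⟨τ, k1, k2⟩ := ((c1.eventually (usc_pt B.hm.usc x col _)).and
      (Ioo_mem_nhdsGT haσ)).exists
    exact k1 (by rw [(hall τ k2.1 k2.2.le).2]; rfl)
  have ds := dist_pt_succ x s
  have ds' : dist (Vale.Agent.P032.H180.pt x (s + 1)) (Vale.Agent.P032.H180.pt x s) = 1 := by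
    rw [dist_comm]; exact ds
  rcases M0 with ⟨m1, m2⟩ | ⟨m1, m2⟩
  · rcases M1 with ⟨n1, n2⟩ | ⟨n1, n2⟩
    · -- both full
      refine B.solid hcol hinj m1 n1 hsg (ρ := σ₀ - a) (by linarith) fun σ k1 k2 => ?_
      rw [m2, n2]
      have k3 := hall (a + σ) (by linarith) (by linarith)
      have e1 : t + sg * (a + σ) = s + sg * σ := by rw [hs]; ring
      have k4 : Qx T x col (t + sg * (a + σ)) = {r1} ∧
        Qx T x col (t + sg * (a + σ) + 1) = {r0} := k3
      rw [e1] at k4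
      exact k4
    · exact B.nbrQ hcol ds' m1 n1 (m2 ▸ hc0)
  · rcases M1 with ⟨n1, n2⟩ | ⟨n1, n2⟩
    · exact B.nbrQ hcol ds n1 m1 (n2 ▸ hc1)
    · -- both not full: the state is bad
      have g0 : ∀ i ∈ Qx T x col s, i = r1 ∨ i = r0 := by
        intro i hi
        rcases m2 i hi r1 hc1 with h2 | h2 | h2
        · exact Or.inr h2
        · exact absurd h2.symm hr
        · exact Or.inl h2
      have g1 : ∀ i ∈ Qx T x col (s + 1), i = r1 ∨ i = r0 := by
        intro i hi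
        rcases n2 i hi r0 hc0 with h2 | h2 | h2
        · exact Or.inl h2
        · exact absurd h2 hr
        · exact Or.inr h2
      have i0 := B.incQ hcol (t := s) (s := s + 1) (col := col) ds'
      have i1 := B.incQ hcol (t := s + 1) (s := s) (col := col) ds
      rw [Qt_of_ne m1, Qt_of_ne n1] at i0
      rw [Qt_of_ne m1, Qt_of_ne n1] at i1
      refine hab ⟨?_, ?_⟩
      · rw [← hs]
        apply Subset.antisymm
        · intro i hi
          rcases g0 i hi with h2 | h2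
          · exact h2
          · exfalso
            refine i1 fun j hj => ?_
            rcases g1 j hj with h3 | h3
            · exact h3 ▸ hc1
            · exact h3 ▸ h2 ▸ hi
        · rintro _ rfl
          exact hc1
      · rw [← hs]
        apply Subset.antisymm
        · intro i hi
          rcases g1 i hi with h2 | h2
          · exfalso
            refine i0 fun j hj => ?_
            rcases g0 j hj with h3 | h3
            · exact h3 ▸ h2 ▸ hi
            · exact h3 ▸ hc0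
          · exact h2
        · rintro _ rfl
          exact hc0

/-- **The hexagon of a base.** -/
theorem RBH.hex (B : RBH U T Z f δ₀ x S) (hcol : ∀ i, i ∉ S ↔ ∃ l, i = col l)
    (hinj : Function.Injective col) : HexZ (Qx T x col) (rx T f S x col) where
  per t := by unfold Qx; rw [pt_six]
  rper t := by unfold rx; rw [pt_six]
  ne := B.neQ hcol
  usc := usc_pt B.hm.usc x col
  lay t ht := B.lay hcol hinj ht
  inc t := B.incQ hcol (by rw [dist_comm]; exact dist_pt_succ x t)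
  inc' t := B.incQ hcol (dist_pt_succ x t)
  nbad t h0 h1 := by
    obtain ⟨ε1, hε1, k1⟩ := B.nbad_side hcol hinj h0 h1 (sg := 1) (Or.inl rfl)
    obtain ⟨ε2, hε2, k2⟩ := B.nbad_side hcol hinj h0 h1 (sg := -1) (Or.inr rfl)
    have hr : rx T f S x col t ≠ rx T f S x col (t + 1) := by
      intro h2
      refine B.incQ hcol (t := t) (s := t + 1) (by rw [dist_comm]; exact dist_pt_succ x t) ?_
      rw [Qt_of_eq h0, Qt_of_eq h1, h2]
    filter_upwards [Ioo_mem_nhds (show t - ε2 < t by linarith) (show t < t + ε1 by linarith)]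
      with s hs hb
    rcases lt_trichotomy s t with h2 | h2 | h2
    · refine k2 (t - s) (by linarith) (by linarith [hs.1]) ?_
      have e1 : t + -1 * (t - s) = s := by ring
      rw [e1]
      exact hb
    · subst h2
      have h3 := hb.1
      rw [h0] at h3
      have h4 : rx T f S x col s ∈ (univ : Set (Fin 3)) := mem_univ _
      rw [h3] at h4
      exact hr h4
    · refine k1 (s - t) (by linarith) (by linarith [hs.2]) ?_
      have e1 : t + 1 * (s - t) = s := by ring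
      rw [e1]
      exact hb

end Vale.Agent.P032.S5.H180
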