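import Vale.Agent.P032.S5.H180.FzT

/-!
# P032, carriers: no frozen circle about a real three-point or a virtual face

`v` has three colours, or four colours `insert b F` with the only pair `{a, b}`, `a ∈ F`; the points
of the circle have at most three colours.
-/

open Set Filter Topology Metric

noncomputable section

namespace Vale.Agent.P032.S5.H180.Fz

open Vale.Agent.P032.Six Vale.Agent.P032.S5.H783 Vale.Agent.P032.H180

variable {U : Fin 6 → Set ℂ} {T : ℂ → Set (Fin 6)}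

/-- the third colour of a set of size at most three -/
theorem third {S : Set (Fin 6)} (hcard : S.ncard ≤ 3) {a b t : Fin 6} (ha : a ∈ S)
    (hb : b ∈ S) (hab : a ≠ b) (ht : t ∈ S) (hta : t ≠ a) (htb : t ≠ b) :
    S ⊆ {a, b, t} := by
  have h1 : ({a, b, t} : Set (Fin 6)) = S := by
    apply Set.eq_of_subset_of_ncard_le
    · rintro m (rfl | rfl | rfl) <;> assumption
    · rw [Set.ncard_insert_of_notMem, Set.ncard_pair htb.symm]
      · exact hcard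
      · rintro (h7 | h7)
        · exact hab h7
        · exact hta h7.symm
    · exact Set.toFinite _
  exact h1.symm.subset

/-- the third colours on a frozen circle, case A -/
theorem dataA (h : Irr U T) {F : Set (Fin 6)} (h3 : F.ncard = 3) {v : ℂ}
    (hle : ∀ y, dist y v = 1 → (T y).ncard ≤ 3) {θa θ0 : ℝ} (hθ : θa < θ0)
    (hθ' : θ0 - θa ≤ 1 / 2) (c : ℕ → Fin 6) (hc : ∀ k, c k ∉ F)
    (hc1 : ∀ k, c k ≠ c (k + 1)) (hc2 : ∀ k, c k ≠ c (k + 2))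
    (hin : ∀ k, c k ∈ T (yy v θ0 k)) (hin' : ∀ k, c (k + 1) ∈ T (yy v θ0 k))
    (hout : ∀ k, c (k + 2) ∉ T (yy v θ0 k))
    (harc : ∀ k, ∀ θ ∈ Icc θa θ0, c k ∈ T (yy v θ k)) :
    ∃ t : ℕ → Fin 6, (∀ k, t k ∈ F) ∧ (∀ k, t k ∈ T (yy v θ0 (k + 1))) ∧
      (∀ k, T (yy v θ0 (k + 1)) ⊆ {c (k + 1), c (k + 2), t k}) ∧ (∀ k, t k ≠ t (k + 1)) ∧
      ∀ k, ∀ᶠ g in 𝓝 v, t k ∈ Pal U g → 1 ≤ dist g (yy v θ0 (k + 1)) := by
  have hpi := Real.pi_gt_three
  have ht : ∀ k, ∃ t ∈ F, t ∈ T (yy v θ0 (k + 1)) ∧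
      T (yy v θ0 (k + 1)) ⊆ {c (k + 1), c (k + 2), t} := by
    intro k
    have h1 : ¬ T (yy v θ0 (k + 1)) ⊆ {c (k + 1), c (k + 2)} := by
      intro hsub
      have := h.lemmaB (x := yy v θ0 (k + 1)) (y := yy v θ0 k) (y' := yy v θ0 (k + 2)) hsub
        (by rw [dist_comm]; exact dist_yy_succ v θ0 k) (dist_yy_succ v θ0 (k + 1))
        (h.sub _ (hin' k)) (h.sub _ (hin (k + 2)))
      exact yy_not_line v θ0 k this
    obtain ⟨t, ht1, ht2⟩ := Set.not_subset.1 h1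
    have hta : t ≠ c (k + 1) := fun h5 => ht2 (Or.inl h5)
    have htb : t ≠ c (k + 2) := fun h5 => ht2 (Or.inr h5)
    refine ⟨t, ?_, ht1, third (hle _ (dist_yy v θ0 _)) (hin (k + 1))
      (hin' (k + 1)) (hc1 (k + 1)) ht1 hta htb⟩
    by_contra htv
    rcases cover_compl' h3 (hc (k + 1)) (hc (k + 2)) (hc (k + 3)) (hc1 (k + 1)) (hc1 (k + 2))
      (hc2 (k + 1)) htv with h5 | h5 | h5
    · exact hta h5
    · exact htb h5
    · exact hout (k + 1) (h5 ▸ ht1)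
  choose t htv hty htsub using ht
  refine ⟨t, htv, hty, htsub, ?_, ?_⟩
  · intro k heq
    have hsub : T (yy v θ0 (k + 2)) ⊆ insert (c (k + 3)) (T (yy v θ0 (k + 1))) := by
      intro m hm
      rcases htsub (k + 1) hm with h5 | h5 | h5
      · right; rw [h5]; exact hin' (k + 1)
      · left; exact h5
      · right
        rw [h5, ← heq]; exact hty k
    have := h.lemmaX (u := yy v θ0 (k + 1)) (p := yy v θ0 (k + 2)) (v := yy v θ0 (k + 3))
      (by rw [dist_comm]; exact dist_yy_succ v θ0 (k + 1))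
      (hle _ (dist_yy v θ0 _)) hsub (dist_yy_succ v θ0 (k + 2)) (h.sub _ (hin (k + 3)))
    exact yy_not_line v θ0 (k + 1) this
  · intro k
    have hev : ∀ᶠ p in 𝓝 (yy v θ0 (k + 1)), c (k + 2) ∈ Pal U p →
        dist p (yy v θ0 (k + 2)) ≤ 1 := by
      refine arcA h.mx (Q := (fun θ => yy v θ (k + 2)) '' Icc θa θ0) (a0 := yy v θa (k + 2))
        (isPreconnected_Icc.image _ (continuous_yy v (k + 2)).continuousOn) ?_
        ⟨θ0, ⟨hθ.le, le_rfl⟩, rfl⟩ ⟨θa, ⟨le_rfl, hθ.le⟩, rfl⟩ ?_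
      · rintro _ ⟨θ, hθm, rfl⟩
        exact h.sub _ (harc (k + 2) θ hθm)
      · apply dist_sq_lt dist_nonneg
        rw [dist_yy_add]
        have e1 : (θa - θ0) + (((k + 2 : ℕ) : ℝ) - ((k + 1 : ℕ) : ℝ)) * (Real.pi / 3) =
            Real.pi / 3 - (θ0 - θa) := by push_cast; ring
        rw [e1]
        have e2 : 1 / 2 < Real.cos (Real.pi / 3 - (θ0 - θa)) := by
          rw [← Real.cos_pi_div_three]
          apply Real.cos_lt_cos_of_nonneg_of_le_pi <;> linarith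
        linarith
    exact fzA h (a := yy v θ0 k) (b := yy v θ0 (k + 2)) (c := c (k + 1)) (c' := c (k + 2))
      (by rw [dist_comm]; exact dist_yy v θ0 k) (by rw [dist_comm]; exact dist_yy_succ v θ0 k)
      (dist_yy v θ0 (k + 1)) (by linear_combination yy_rel v θ0 k) (htsub k)
      (h.sub _ (hin' k)) hev

/-- the third colours on a frozen circle, case B -/
theorem dataB (h : Irr U T) {F : Set (Fin 6)} (h3 : F.ncard = 3) {v : ℂ}
    (hle : ∀ y, dist y v = 1 → (T y).ncard ≤ 3) {θa θ0 : ℝ} (hθ : θa < θ0)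
    (hθ' : θ0 - θa ≤ 1 / 2) (c : ℕ → Fin 6) (hc : ∀ k, c k ∉ F)
    (hc1 : ∀ k, c k ≠ c (k + 1)) (hc2 : ∀ k, c k ≠ c (k + 2)) (hc3 : ∀ k, c (k + 3) = c k)
    (hin : ∀ k, c k ∈ T (yy v θ0 k)) (hin' : ∀ k, c (k + 2) ∈ T (yy v θ0 k))
    (hout : ∀ k, c (k + 1) ∉ T (yy v θ0 k))
    (harc : ∀ k, ∀ θ ∈ Icc θa θ0, c k ∈ T (yy v θ k)) :
    ∃ t : ℕ → Fin 6, (∀ k, t k ∈ F) ∧ (∀ k, t k ∈ T (yy v θ0 (k + 1))) ∧
      (∀ k, T (yy v θ0 (k + 1)) ⊆ {c (k + 1), c k, t k}) ∧ (∀ k, t k ≠ t (k + 1)) ∧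
      ∀ k, ∀ᶠ g in 𝓝 v, t k ∈ Pal U g → dist g (yy v θ0 (k + 1)) ≤ 1 := by
  have hpi := Real.pi_gt_three
  have hin2 : ∀ k, c k ∈ T (yy v θ0 (k + 1)) := fun k => by
    have := hin' (k + 1)
    rwa [show k + 1 + 2 = k + 3 from rfl, hc3] at this
  have ht : ∀ k, ∃ t ∈ F, t ∈ T (yy v θ0 (k + 1)) ∧
      T (yy v θ0 (k + 1)) ⊆ {c (k + 1), c k, t} := by
    intro k
    have h1 : ¬ T (yy v θ0 (k + 1)) ⊆ {c k, c (k + 1)} := by
      intro hsub
      have := h.lemmaB (x := yy v θ0 (k + 1)) (y := yy v θ0 k) (y' := yy v θ0 (k + 2)) hsub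
        (by rw [dist_comm]; exact dist_yy_succ v θ0 k) (dist_yy_succ v θ0 (k + 1))
        (h.sub _ (hin k)) (h.sub _ (hin2 (k + 1)))
      exact yy_not_line v θ0 k this
    obtain ⟨t, ht1, ht2⟩ := Set.not_subset.1 h1
    have hta : t ≠ c (k + 1) := fun h5 => ht2 (Or.inr h5)
    have htb : t ≠ c k := fun h5 => ht2 (Or.inl h5)
    refine ⟨t, ?_, ht1, third (hle _ (dist_yy v θ0 _)) (hin (k + 1))
      (hin2 k) (hc1 k).symm ht1 hta htb⟩
    by_contra htv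
    rcases cover_compl' h3 (hc k) (hc (k + 1)) (hc (k + 2)) (hc1 k) (hc1 (k + 1))
      (hc2 k) htv with h5 | h5 | h5
    · exact htb h5
    · exact hta h5
    · exact hout (k + 1) (h5 ▸ ht1)
  choose t htv hty htsub using ht
  refine ⟨t, htv, hty, htsub, ?_, ?_⟩
  · intro k heq
    have hsub : T (yy v θ0 (k + 2)) ⊆ insert (c (k + 2)) (T (yy v θ0 (k + 1))) := by
      intro m hm
      rcases htsub (k + 1) hm with h5 | h5 | h5
      · left; exact h5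
      · right; rw [h5]; exact hin (k + 1)
      · right
        rw [h5, ← heq]; exact hty k
    have := h.lemmaX (u := yy v θ0 (k + 1)) (p := yy v θ0 (k + 2)) (v := yy v θ0 (k + 3))
      (by rw [dist_comm]; exact dist_yy_succ v θ0 (k + 1))
      (hle _ (dist_yy v θ0 _)) hsub (dist_yy_succ v θ0 (k + 2)) (h.sub _ (hin2 (k + 2)))
    exact yy_not_line v θ0 (k + 1) this
  · intro k
    have hev : ∀ᶠ p in 𝓝 (yy v θ0 (k + 1)), c k ∈ Pal U p → 1 ≤ dist p (yy v θ0 k) := by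
      refine arcB h.mx (Q := (fun θ => yy v θ k) '' Icc θa θ0) (a0 := yy v θa k)
        (isPreconnected_Icc.image _ (continuous_yy v k).continuousOn) ?_
        ⟨θ0, ⟨hθ.le, le_rfl⟩, rfl⟩ ⟨θa, ⟨le_rfl, hθ.le⟩, rfl⟩ ?_
      · rintro _ ⟨θ, hθm, rfl⟩
        exact h.sub _ (harc k θ hθm)
      · apply dist_sq_gt dist_nonneg
        rw [dist_yy_add]
        have e1 : (θa - θ0) + ((k : ℝ) - ((k + 1 : ℕ) : ℝ)) * (Real.pi / 3) =
            -(Real.pi / 3 + (θ0 - θa)) := by push_cast; ring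
        rw [e1, Real.cos_neg]
        have e2 : Real.cos (Real.pi / 3 + (θ0 - θa)) < 1 / 2 := by
          rw [← Real.cos_pi_div_three]
          apply Real.cos_lt_cos_of_nonneg_of_le_pi <;> linarith
        linarith
    exact fzB h (a := yy v θ0 (k + 2)) (b := yy v θ0 k) (c := c (k + 1)) (c' := c k)
      (by rw [dist_comm]; exact dist_yy v θ0 (k + 2)) (dist_yy_succ v θ0 (k + 1))
      (dist_yy v θ0 (k + 1)) (by linear_combination yy_rel v θ0 k) (htsub k)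
      (h.sub _ (hin2 (k + 1))) hev

/-- a frozen circle about a base gives arcs and third colours (both cases) -/
theorem frz_data (h : Irr U T) {v : ℂ} {F : Set (Fin 6)} (f : Face T v F)
    (hle : ∀ y, dist y v = 1 → (T y).ncard ≤ 3) {col : Fin 3 → Fin 6}
    (hcol : ∀ i, i ∉ F ↔ ∃ l, i = col l) (hinj : Function.Injective col) (hF : Frz v T col) :
    ∃ (θa θ0 : ℝ) (c t : ℕ → Fin 6), θa < θ0 ∧ θ0 - θa ≤ 1 / 2 ∧ (∀ k, c k ∉ F) ∧
      (∀ k, c k ≠ c (k + 1)) ∧ (∀ k, c k ≠ c (k + 2)) ∧ (∀ k, c (k + 3) = c k) ∧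
      (∀ k θ i, θa ≤ θ → θ < θ0 → i ∉ F → i ∈ T (yy v θ k) → i = c k) ∧
      (∀ k, t k ∈ F) ∧ (∀ k, t k ∈ T (yy v θ0 (k + 1))) ∧
      (∀ k i, i ∈ F → i ∈ T (yy v θ0 (k + 1)) → i = t k) ∧ (∀ k, t k ≠ t (k + 1)) ∧
      ((∀ k, ∀ᶠ g in 𝓝 v, t k ∈ Pal U g → 1 ≤ dist g (yy v θ0 (k + 1))) ∨
        (∀ k, ∀ᶠ g in 𝓝 v, t k ∈ Pal U g → dist g (yy v θ0 (k + 1)) ≤ 1)) := by
  obtain ⟨c, d, e, σ, hcov, hcd, hde, hce, hσc, hσd, hσe, hfr⟩ := frz_perm hcol hinj hF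
  obtain ⟨θa, θ0, cc, hθ, hθ', hcT, hc1, hc2, hc3, hin, harc, hpu, hcase⟩ :=
    frozen_data (K := T) f.three h.nhd
    (fun y hy => by
      obtain ⟨i, hi, hi'⟩ := f.out y hy
      exact ⟨i, hi', hi⟩)
    (fun y hy => f.Q_ne_compl h hy (hle _ hy) fun q hq _ => hle q hq) hcov hcd hde hce σ
    hσc hσd hσe hfr
  rcases hcase with hcase | hcase
  · obtain ⟨t, ht1, ht2, ht3, ht4, ht5⟩ := dataA h f.three hle hθ hθ' cc hcT hc1 hc2 hin
      (fun k => (hcase k).1) (fun k => (hcase k).2) harc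
    refine ⟨θa, θ0, cc, t, hθ, hθ', hcT, hc1, hc2, hc3, hpu, ht1, ht2, ?_, ht4, Or.inl ht5⟩
    intro k i hi hik
    rcases ht3 k hik with h5 | h5 | h5
    · exact absurd (h5 ▸ hi) (hcT _)
    · exact absurd (h5 ▸ hi) (hcT _)
    · exact h5
  · obtain ⟨t, ht1, ht2, ht3, ht4, ht5⟩ := dataB h f.three hle hθ hθ' cc hcT hc1 hc2 hc3 hin
      (fun k => (hcase k).1) (fun k => (hcase k).2) harc
    refine ⟨θa, θ0, cc, t, hθ, hθ', hcT, hc1, hc2, hc3, hpu, ht1, ht2, ?_, ht4, Or.inr ht5⟩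
    intro k i hi hik
    rcases ht3 k hik with h5 | h5 | h5
    · exact absurd (h5 ▸ hi) (hcT _)
    · exact absurd (h5 ▸ hi) (hcT _)
    · exact h5

/-- **FROZEN**, real three-point -/
theorem not_frz_real (h : Irr U T) {v : ℂ} (h3 : (T v).ncard = 3)
    (hle : ∀ y, dist y v = 1 → (T y).ncard ≤ 3) {col : Fin 3 → Fin 6}
    (hcol : ∀ i, i ∉ T v ↔ ∃ l, i = col l) (hinj : Function.Injective col) : ¬ Frz v T col := by
  intro hF
  obtain ⟨θa, θ0, c, t, -, -, -, -, -, -, -, ht1, ht2, -, ht4, hcase⟩ :=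
    frz_data h (Face.of_three h h3) hle hcol hinj hF
  by_cases hv : v ∈ XX U
  · rcases hcase with hcase | hcase
    · refine finA h hv h3 (θ0 + Real.pi / 3) t ht1 ht4 fun k => ?_
      rw [yy_shift]
      exact hcase k
    · refine finB h hv h3 (θ0 + Real.pi / 3) t ht1 ht4 fun k => ?_
      rw [yy_shift]
      exact hcase k
  · exact h.off_pal (by rw [dist_comm]; exact dist_yy v θ0 1) hv (ht1 0) (h.sub _ (ht2 0))

/-- distances from a point near `v` in polar form -/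
theorem dist_polar (v : ℂ) (r φ θ : ℝ) (k : ℕ) :
    dist (v + (r : ℂ) * cis φ) (yy v θ k) ^ 2 =
      r ^ 2 + 1 - 2 * r * Real.cos (φ - (θ + k * (Real.pi / 3))) := by
  rw [dist_eq_norm, yy, add_sub_add_left_eq_sub, Complex.sq_norm, Complex.normSq_apply]
  simp only [Complex.sub_re, Complex.sub_im, cis, Complex.re_ofReal_mul, Complex.im_ofReal_mul,
    Complex.exp_ofReal_mul_I_re, Complex.exp_ofReal_mul_I_im]
  rw [Real.cos_sub]
  have h1 := Real.sin_sq_add_cos_sq φ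
  have h2 := Real.sin_sq_add_cos_sq (θ + k * (Real.pi / 3))
  nlinarith

/-- **FROZEN**, virtual face of a harmless four-point -/
theorem not_frz_virtual (h : Irr U T) {v : ℂ} {F : Set (Fin 6)} {a b : Fin 6} (f : Face T v F)
    (hb : b ∉ F) (ha : a ∈ F) (hv : T v = insert b F)
    (harm : ∀ y, dist y v = 1 → T y ⊆ T v → a ∈ T y ∧ b ∈ T y)
    (hle : ∀ y, dist y v = 1 → (T y).ncard ≤ 3) {col : Fin 3 → Fin 6}
    (hcol : ∀ i, i ∉ F ↔ ∃ l, i = col l) (hinj : Function.Injective col) : ¬ Frz v T col := by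
  intro hF
  have hpi := Real.pi_gt_three
  obtain ⟨θa, θ0, c, t, hθ, hθ', hcT, hc1, hc2, hc3, hpu, ht1, ht2, ht3, ht4, hcase⟩ :=
    frz_data h f hle hcol hinj hF
  -- a position with the colour `b`
  obtain ⟨k0, hk0⟩ : ∃ k0, c (k0 + 1) = b := by
    rcases cover_compl' f.three (hcT 1) (hcT 2) (hcT 3) (hc1 1) (hc1 2) (hc2 1) hb with h5 | h5 | h5
    · exact ⟨0, h5.symm⟩
    · exact ⟨1, h5.symm⟩
    · exact ⟨2, h5.symm⟩
  -- on its arc there are `a` and `b`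
  have hcl : ∀ (i : Fin 6) (k : ℕ), (∀ θ, θa ≤ θ → θ < θ0 → i ∈ T (yy v θ k)) →
      ∀ θ ∈ Icc θa θ0, i ∈ T (yy v θ k) := by
    intro i k hi θ hθm
    rcases hθm.2.lt_or_eq with h5 | h5
    · exact hi θ hθm.1 h5
    · have hc : IsClosed {θ | i ∈ T (yy v θ k)} := (h.closed i).preimage (continuous_yy v k)
      have hmem : θ0 ∈ closure (Ioo θa θ0) := by
        rw [closure_Ioo hθ.ne]
        exact ⟨hθ.le, le_rfl⟩
      rw [h5]
      exact closure_minimal (fun s hs => hi s hs.1.le hs.2) hc hmem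
  have hab : ∀ k, c k = b → ∀ θ, θa ≤ θ → θ < θ0 → a ∈ T (yy v θ k) ∧ b ∈ T (yy v θ k) := by
    intro k hk θ hθ1 hθ2
    refine harm _ (dist_yy v θ k) fun i hi => ?_
    rw [hv]
    by_cases hiF : i ∈ F
    · exact Or.inr hiF
    · left
      rw [← hk]
      exact hpu k θ i hθ1 hθ2 hiF hi
  have hka : ∀ k, c (k + 1) = b → t k = a := by
    intro k hk
    have h5 : a ∈ T (yy v θ0 (k + 1)) :=
      hcl a (k + 1) (fun θ h1 h2 => (hab _ hk θ h1 h2).1) θ0 ⟨hθ.le, le_rfl⟩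
    exact (ht3 k a ha h5).symm
  have ta0 : t k0 = a := hka k0 hk0
  have ta3 : t (k0 + 3) = a := hka (k0 + 3) (by
    rw [show k0 + 3 + 1 = k0 + 1 + 3 by ring, hc3]; exact hk0)
  have n1 : t (k0 + 1) ≠ a := fun h5 => ht4 k0 (by rw [ta0, h5])
  have n2 : t (k0 + 2) ≠ a := fun h5 => ht4 (k0 + 2) (by
    rw [h5, show k0 + 2 + 1 = k0 + 3 from rfl, ta3])
  have n3 : t (k0 + 1) ≠ t (k0 + 2) := ht4 (k0 + 1)
  have hFc : ∀ i ∈ F, i = a ∨ i = t (k0 + 1) ∨ i = t (k0 + 2) := fun i hi =>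
    three_cover f.three ha (ht1 _) (ht1 _) n1.symm n3 n2.symm hi
  -- the wedge
  have hQ : ∀ i : Fin 6, (i = a ∨ i = b) → (fun θ => yy v θ (k0 + 1)) '' Icc θa θ0 ⊆
      closure (U i) := by
    rintro i hi _ ⟨θ, hθm, rfl⟩
    refine h.sub _ (hcl i (k0 + 1) (fun θ h1 h2 => ?_) θ hθm)
    rcases hi with rfl | rfl
    · exact (hab _ hk0 θ h1 h2).1
    · exact (hab _ hk0 θ h1 h2).2
  have hQc : IsPreconnected ((fun θ => yy v θ (k0 + 1)) '' Icc θa θ0) :=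
    isPreconnected_Icc.image _ (continuous_yy v (k0 + 1)).continuousOn
  set ε := θ0 - θa with hε
  have hε0 : 0 < ε := by linarith
  set φ : ℝ := θ0 + ((k0 + 1 : ℕ) : ℝ) * (Real.pi / 3) + Real.pi / 2 - ε / 2 with hφ
  have c0 : 0 < Real.cos (φ - (θ0 + ((k0 + 1 : ℕ) : ℝ) * (Real.pi / 3))) := by
    apply Real.cos_pos_of_mem_Ioo
    rw [hφ]
    constructor <;> linarith
  have ca : Real.cos (φ - (θa + ((k0 + 1 : ℕ) : ℝ) * (Real.pi / 3))) < 0 := by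
    apply Real.cos_neg_of_pi_div_two_lt_of_lt
    · rw [hφ]; linarith
    · rw [hφ]; linarith
  have c1 : 0 < Real.cos (φ - (θ0 + ((k0 + 2 : ℕ) : ℝ) * (Real.pi / 3))) := by
    apply Real.cos_pos_of_mem_Ioo
    rw [hφ]
    push_cast
    constructor <;> linarith
  have c2 : 0 < Real.cos (φ - (θ0 + ((k0 + 3 : ℕ) : ℝ) * (Real.pi / 3))) := by
    apply Real.cos_pos_of_mem_Ioo
    rw [hφ]
    push_cast
    constructor <;> linarith
  -- small points of the wedge, `s = 1` in case A, `s = -1` in case B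
  have key : ∀ s : ℝ, (s = 1 ∨ s = -1) →
      (∀ r : ℝ, 0 < r → r ≤ 1 → r < 2 * Real.cos (φ - (θ0 + ((k0 + 1 : ℕ) : ℝ) * (Real.pi / 3))) →
        r < 2 * -Real.cos (φ - (θa + ((k0 + 1 : ℕ) : ℝ) * (Real.pi / 3))) →
        ∀ i, (i = a ∨ i = b) → i ∉ Pal U (v + ((s * r : ℝ) : ℂ) * cis φ)) := by
    intro s hs r hr0 hr1 hr2 hr3 i hi
    have d0 := dist_polar v (s * r) φ θ0 (k0 + 1)
    have da := dist_polar v (s * r) φ θa (k0 + 1)
    set g := v + ((s * r : ℝ) : ℂ) * cis φ with hg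
    have p0 := dist_nonneg (x := g) (y := yy v θ0 (k0 + 1))
    have pa := dist_nonneg (x := g) (y := yy v θa (k0 + 1))
    rcases hs with rfl | rfl
    · refine h.mx.wlemma hQc (hQ i hi) (z := g) (a := yy v θ0 (k0 + 1)) (b := yy v θa (k0 + 1))
        ⟨θ0, ⟨hθ.le, le_rfl⟩, rfl⟩ ⟨θa, ⟨le_rfl, hθ.le⟩, rfl⟩ ?_ ?_
      · rw [dist_comm]
        apply dist_sq_lt p0
        rw [d0]
        nlinarith
      · rw [dist_comm]
        apply dist_sq_gt pa
        rw [da]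
        nlinarith
    · refine h.mx.wlemma hQc (hQ i hi) (z := g) (a := yy v θa (k0 + 1)) (b := yy v θ0 (k0 + 1))
        ⟨θa, ⟨le_rfl, hθ.le⟩, rfl⟩ ⟨θ0, ⟨hθ.le, le_rfl⟩, rfl⟩ ?_ ?_
      · rw [dist_comm]
        apply dist_sq_lt pa
        rw [da]
        nlinarith
      · rw [dist_comm]
        apply dist_sq_gt p0
        rw [d0]
        nlinarith
  have hsmall : ∀ P : ℂ → Prop, (∀ᶠ g in 𝓝 v, P g) → ∀ s : ℝ, (s = 1 ∨ s = -1) →
      ∃ r : ℝ, 0 < r ∧ r ≤ 1 ∧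
        r < 2 * Real.cos (φ - (θ0 + ((k0 + 1 : ℕ) : ℝ) * (Real.pi / 3))) ∧
        r < 2 * -Real.cos (φ - (θa + ((k0 + 1 : ℕ) : ℝ) * (Real.pi / 3))) ∧
        r < 2 * Real.cos (φ - (θ0 + ((k0 + 2 : ℕ) : ℝ) * (Real.pi / 3))) ∧
        r < 2 * Real.cos (φ - (θ0 + ((k0 + 3 : ℕ) : ℝ) * (Real.pi / 3))) ∧
        P (v + ((s * r : ℝ) : ℂ) * cis φ) := by
    intro P hP s hs
    have hcont : Tendsto (fun r : ℝ => v + ((s * r : ℝ) : ℂ) * cis φ) (𝓝 0) (𝓝 v) := by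
      have : Continuous fun r : ℝ => v + ((s * r : ℝ) : ℂ) * cis φ := by fun_prop
      have h2 := this.tendsto 0
      simpa using h2
    have h1 : ∀ᶠ r in 𝓝[>] (0 : ℝ), P (v + ((s * r : ℝ) : ℂ) * cis φ) :=
      mem_nhdsWithin_of_mem_nhds (hcont.eventually hP)
    have hlt : ∀ x : ℝ, 0 < x → ∀ᶠ r in 𝓝[>] (0 : ℝ), r < x := fun x hx =>
      mem_nhdsWithin_of_mem_nhds (Iio_mem_nhds hx)
    obtain ⟨r, ⟨h2, h3⟩, h4, h5, h6, h7, h8⟩ :=
      ((h1.and self_mem_nhdsWithin).and ((hlt 1 one_pos).and ((hlt _ (by positivity :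
        0 < 2 * Real.cos (φ - (θ0 + ((k0 + 1 : ℕ) : ℝ) * (Real.pi / 3))))).and
        ((hlt _ (by linarith :
        0 < 2 * -Real.cos (φ - (θa + ((k0 + 1 : ℕ) : ℝ) * (Real.pi / 3))))).and
        ((hlt _ (by positivity :
        0 < 2 * Real.cos (φ - (θ0 + ((k0 + 2 : ℕ) : ℝ) * (Real.pi / 3))))).and
        (hlt _ (by positivity :
        0 < 2 * Real.cos (φ - (θ0 + ((k0 + 3 : ℕ) : ℝ) * (Real.pi / 3)))))))))).exists
    exact ⟨r, h3, h4.le, h5, h6, h7, h8, h2⟩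
  rcases hcase with hcase | hcase
  · obtain ⟨r, r0, r1, r2, r3, r4, r5, g1, g2, g3⟩ := hsmall _
      ((hcase (k0 + 1)).and ((hcase (k0 + 2)).and (h.nhd v))) 1 (Or.inl rfl)
    have hk := key 1 (Or.inl rfl) r r0 r1 r2 r3
    have d1 := dist_polar v (1 * r) φ θ0 (k0 + 2)
    have d2 := dist_polar v (1 * r) φ θ0 (k0 + 3)
    set g := v + ((1 * r : ℝ) : ℂ) * cis φ with hg
    obtain ⟨i, hi⟩ := h.ne g
    have p1 := dist_nonneg (x := g) (y := yy v θ0 (k0 + 2))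
    have p2 := dist_nonneg (x := g) (y := yy v θ0 (k0 + 3))
    have hi2 := g3 hi
    rw [hv] at hi2
    rcases hi2 with rfl | hi2
    · exact hk _ (Or.inr rfl) (h.sub _ hi)
    · rcases hFc i hi2 with rfl | rfl | rfl
      · exact hk _ (Or.inl rfl) (h.sub _ hi)
      · have := g1 (h.sub _ hi)
        nlinarith
      · have := g2 (h.sub _ hi)
        nlinarith
  · obtain ⟨r, r0, r1, r2, r3, r4, r5, g1, g2, g3⟩ := hsmall _
      ((hcase (k0 + 1)).and ((hcase (k0 + 2)).and (h.nhd v))) (-1) (Or.inr rfl)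
    have hk := key (-1) (Or.inr rfl) r r0 r1 r2 r3
    have d1 := dist_polar v (-1 * r) φ θ0 (k0 + 2)
    have d2 := dist_polar v (-1 * r) φ θ0 (k0 + 3)
    set g := v + ((-1 * r : ℝ) : ℂ) * cis φ with hg
    obtain ⟨i, hi⟩ := h.ne g
    have p1 := dist_nonneg (x := g) (y := yy v θ0 (k0 + 2))
    have p2 := dist_nonneg (x := g) (y := yy v θ0 (k0 + 3))
    have hi2 := g3 hi
    rw [hv] at hi2
    rcases hi2 with rfl | hi2
    · exact hk _ (Or.inr rfl) (h.sub _ hi)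
    · rcases hFc i hi2 with rfl | rfl | rfl
      · exact hk _ (Or.inl rfl) (h.sub _ hi)
      · have := g1 (h.sub _ hi)
        nlinarith
      · have := g2 (h.sub _ hi)
        nlinarith

end Vale.Agent.P032.S5.H180.Fz
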