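import Vale.Agent.P032.S5.H783.Frozen2
import Vale.Agent.P032.S5.Mesh
import Vale.Agent.P032.H180.Ring

/-!
# P032, block (L-6): the odd ring

At a point `v` of `XX U` with three colours, every fine polar ring on the unit circle about `v`,
labelled by colours of `K` outside `Pal U v`, has an odd number of steps between two given
colours `c`, `d` outside `Pal U v`.
-/

open Set Filter Topology Metric

noncomputable section

namespace Vale.Agent.P032.S5.H180

open Vale.Agent.P032.Six Vale.Agent.P032.S5.H783 Vale.Agent.P032.H180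

variable {U : Fin 6 → Set ℂ} {K : ℂ → Set (Fin 6)}

theorem exists_compl {S : Set (Fin 6)} (h3 : S.ncard = 3) {c d : Fin 6} (hc : c ∉ S)
    (hd : d ∉ S) (hcd : c ≠ d) :
    ∃ e, c ≠ e ∧ d ≠ e ∧ ∀ i, i ∉ S ↔ i = c ∨ i = d ∨ i = e := by
  have h1 : (Sᶜ).ncard = 3 := by
    rw [Set.ncard_compl, h3, Nat.card_eq_fintype_card, Fintype.card_fin]
  have h2 : ∃ e ∈ Sᶜ, e ≠ c ∧ e ≠ d := by
    by_contra hcon
    push Not at hcon
    have h3 : Sᶜ ⊆ {c, d} := by
      intro e he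
      by_cases hec : e = c
      · exact Or.inl hec
      · exact Or.inr (hcon e he hec)
    have h4 := Set.ncard_le_ncard h3 (Set.toFinite _)
    rw [Set.ncard_pair hcd] at h4
    omega
  obtain ⟨e, he, hec, hed⟩ := h2
  have h3 : ({c, d, e} : Set (Fin 6)) = Sᶜ := by
    apply Set.eq_of_subset_of_ncard_le
    · rintro m (rfl | rfl | rfl)
      · exact hc
      · exact hd
      · exact he
    · rw [h1, Set.ncard_insert_of_notMem, Set.ncard_pair hed.symm]
      rintro (h5 | h5)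
      · exact hcd h5
      · exact hec h5.symm
    · exact Set.toFinite _
  refine ⟨e, hec.symm, hed.symm, fun i => ?_⟩
  rw [← Set.mem_compl_iff, ← h3]
  rfl

theorem cis_eq_om : cis (Real.pi / 3) = om := by
  unfold cis om
  rfl

/-- the frozen law does not occur -/
theorem not_frz (h : Mx U) (hK : Car U K) {v : ℂ} (hv : v ∈ XX U) (h3 : (Pal U v).ncard = 3)
    (hle : ∀ y, dist y v = 1 → y ∈ XX U → (Pal U y).ncard ≤ 3) {c d e : Fin 6}
    (hcov : ∀ i, i ∉ Pal U v ↔ i = c ∨ i = d ∨ i = e) (hcd : c ≠ d) (hde : d ≠ e) (hce : c ≠ e) :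
    ¬ Frz v K ![c, d, e] := by
  rintro ⟨s, hs, hfr⟩
  rcases hs with rfl | rfl
  · refine frozen h hK hv h3 hle hcov hcd hde hce
      (fun i => if i = c then d else if i = d then e else c) (by simp)
      (by simp [hcd.symm]) (by simp [hce.symm, hde.symm]) ?_
    intro y hy i hi
    rw [cis_eq_om]
    rcases (hcov i).1 hi with rfl | rfl | rfl
    · simpa using hfr y hy 0
    · simpa [hcd.symm] using hfr y hy 1
    · simpa [hce.symm, hde.symm] using hfr y hy 2
  · refine frozen h hK hv h3 hle (c := c) (d := e) (e := d) (fun i => ?_) hce hde.symm hcd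
      (fun i => if i = c then e else if i = e then d else c) (by simp)
      (by simp [hce.symm]) (by simp [hcd.symm, hde]) ?_
    · rw [hcov i]; tauto
    intro y hy i hi
    rw [cis_eq_om]
    rcases (hcov i).1 hi with rfl | rfl | rfl
    · simpa using hfr y hy 0
    · simpa [hcd.symm, hde] using hfr y hy 1
    · simpa [hce.symm] using hfr y hy 2

theorem exists_col {c d e i : Fin 6} (h : i = c ∨ i = d ∨ i = e) :
    ∃ l, (![c, d, e] : Fin 3 → Fin 6) l = i := by
  rcases h with rfl | rfl | rfl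
  · exact ⟨0, rfl⟩
  · exact ⟨1, rfl⟩
  · exact ⟨2, rfl⟩

theorem f2_eps {c d e : Fin 6} (hcd : c ≠ d) (hde : d ≠ e) (hce : c ≠ e) (i j : Fin 3) :
    eps ((![c, d, e] : Fin 3 → Fin 6) i) ((![c, d, e] : Fin 3 → Fin 6) j) {c, d} = f2 i j := by
  have e1 : ∀ a b : Fin 6, ({a, b} : Finset (Fin 6)) = {b, a} := fun a b => Finset.pair_comm a b
  have n1 : ({c, d} : Finset (Fin 6)) ≠ {c, e} := by
    intro h
    have : d ∈ ({c, e} : Finset (Fin 6)) := by rw [← h]; simp
    simp [hcd.symm, hde] at this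
  have n2 : ({c, d} : Finset (Fin 6)) ≠ {d, e} := by
    intro h
    have : c ∈ ({d, e} : Finset (Fin 6)) := by rw [← h]; simp
    simp [hcd, hce] at this
  fin_cases i <;> fin_cases j <;>
    simp [eps, f2, hcd, hcd.symm, hde, hde.symm, hce, hce.symm, n1, n2, e1 d c, e1 e c, e1 e d]

/-- **The odd ring** for an abstract palette `K` and a set `T` with complement `{c, d, e}`. -/
theorem odd_of_not_frz' {T : Set (Fin 6)} {v : ℂ} {c d e : Fin 6}
    (hcov : ∀ i, i ∉ T ↔ i = c ∨ i = d ∨ i = e) (hcd : c ≠ d) (hde : d ≠ e) (hce : c ≠ e)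
    (hu : ∀ y, ∀ᶠ z in 𝓝 y, K z ⊆ K y)
    (hne : ∀ y, dist y v = 1 → (K y \ T).Nonempty)
    (hnu : ∀ y, dist y v = 1 → ∃ i, i ∉ T ∧ i ∉ K y)
    (hinc : ∀ y z, dist y v = 1 → dist z v = 1 → dist y z = 1 → ¬ (K y \ T ⊆ K z))
    (hnf : ¬ Frz v K ![c, d, e]) :
    ∃ δ > 0, ∀ (n : ℕ) (s : ℕ → ℝ) (lab : ℕ → Fin 6), (∀ k ≤ n, s k ∈ Icc (0 : ℝ) 6) → s 0 = 0 →
      s n = 6 → (∀ k < n, |s k - s (k + 1)| < δ) →
      (∀ k ≤ n, lab k ∈ K (Vale.Agent.P032.H180.pt v (s k)) ∧ lab k ∉ T) → lab n = lab 0 →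
      ∑ k ∈ Finset.range n, eps (lab k) (lab (k + 1)) {c, d} = 1 := by
  have hinj : Function.Injective (![c, d, e] : Fin 3 → Fin 6) := by
    intro i j hij
    fin_cases i <;> fin_cases j <;> simp_all
  obtain ⟨δ, hδ, hodd⟩ := ring_odd_of (v := v) (K := K) (col := ![c, d, e])
    (fun y _ => mem_nhdsWithin_of_mem_nhds ((hu y).mono fun z hz l hl => hz hl))
    (fun y hy => by
      obtain ⟨i, hi, hi'⟩ := hne y hy
      obtain ⟨l, hl⟩ := exists_col ((hcov i).1 hi')
      exact ⟨l, by rw [hl]; exact hi⟩)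
    (fun y hy => by
      obtain ⟨i, hi, hi'⟩ := hnu y hy
      obtain ⟨l, hl⟩ := exists_col ((hcov i).1 hi)
      exact ⟨l, by rw [hl]; exact hi'⟩)
    (fun y z hy hz hyz hsub => by
      refine hinc y z hy hz hyz fun i hi => ?_
      obtain ⟨l, hl⟩ := exists_col ((hcov i).1 hi.2)
      have := hsub l (by rw [hl]; exact hi.1)
      rwa [hl] at this) hnf
  refine ⟨δ, hδ, fun n s lab hs s0 sn hst hlab hper => ?_⟩
  have hex : ∀ k, ∃ l : Fin 3, k ≤ n → (![c, d, e] : Fin 3 → Fin 6) l = lab k := by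
    intro k
    by_cases hk : k ≤ n
    · obtain ⟨l, hl⟩ := exists_col ((hcov (lab k)).1 (hlab k hk).2)
      exact ⟨l, fun _ => hl⟩
    · exact ⟨0, fun hk' => absurd hk' hk⟩
  choose l hl using hex
  have := hodd n s l hs s0 sn hst (fun k hk => by rw [hl k hk]; exact (hlab k hk).1)
    (hinj (by rw [hl n le_rfl, hl 0 (Nat.zero_le n), hper]))
  rw [← this]
  refine Finset.sum_congr rfl fun k hk => ?_
  have hk' := Finset.mem_range.1 hk
  rw [← hl k hk'.le, ← hl (k + 1) hk', f2_eps hcd hde hce]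

/-- **The odd ring** for an abstract palette, polar form. -/
theorem odd_of_not_frz {T : Set (Fin 6)} {v : ℂ} {c d e : Fin 6}
    (hcov : ∀ i, i ∉ T ↔ i = c ∨ i = d ∨ i = e) (hcd : c ≠ d) (hde : d ≠ e) (hce : c ≠ e)
    (hu : ∀ y, ∀ᶠ z in 𝓝 y, K z ⊆ K y)
    (hne : ∀ y, dist y v = 1 → (K y \ T).Nonempty)
    (hnu : ∀ y, dist y v = 1 → ∃ i, i ∉ T ∧ i ∉ K y)
    (hinc : ∀ y z, dist y v = 1 → dist z v = 1 → dist y z = 1 → ¬ (K y \ T ⊆ K z))
    (hnf : ¬ Frz v K ![c, d, e]) :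
    ∃ N : ℕ, ∀ n : ℕ, N ≤ n → ∀ lab : ℕ → Fin 6,
      (∀ k ≤ n, lab k ∈ K (v + cis (2 * Real.pi * k / n)) ∧ lab k ∉ T) → lab n = lab 0 →
      ∑ k ∈ Finset.range n, eps (lab k) (lab (k + 1)) {c, d} = 1 := by
  obtain ⟨δ, hδ, hodd⟩ := odd_of_not_frz' hcov hcd hde hce hu hne hnu hinc hnf
  obtain ⟨N, hN⟩ := exists_nat_gt (6 / δ)
  refine ⟨N + 1, fun n hn lab hlab hper => ?_⟩
  have hn0 : (0 : ℝ) < n := by
    have : 0 < n := by omega
    exact_mod_cast this
  have hnN : (N : ℝ) ≤ n := by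
    have : N ≤ n := by omega
    exact_mod_cast this
  refine hodd n (fun k => 6 * k / n) lab (fun k hk => ?_) (by simp) (by field_simp)
    (fun k _ => ?_) (fun k hk => ?_) hper
  · have hk' : (k : ℝ) ≤ n := by exact_mod_cast hk
    constructor
    · positivity
    · rw [div_le_iff₀ hn0]
      linarith
  · have : (6 : ℝ) * k / n - 6 * ((k + 1 : ℕ) : ℝ) / n = -(6 / n) := by
      push_cast; field_simp; ring
    rw [this, abs_neg, abs_of_pos (by positivity), div_lt_iff₀ hn0]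
    have h6 : 6 < N * δ := by
      rw [div_lt_iff₀ hδ] at hN
      exact hN
    nlinarith
  · have e1 : Vale.Agent.P032.H180.pt v (6 * k / n) = v + cis (2 * Real.pi * k / n) := by
      unfold Vale.Agent.P032.H180.pt cis
      congr 3
      push_cast
      ring
    rw [e1]
    exact hlab k hk

/-- **The odd ring** at a point of `XX`, polar form. -/
theorem odd_ring (h : Mx U) (hK : Car U K) {v : ℂ} (hv : v ∈ XX U) (h3 : (Pal U v).ncard = 3)
    (hle : ∀ y, dist y v = 1 → y ∈ XX U → (Pal U y).ncard ≤ 3) {c d : Fin 6}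
    (hc : c ∉ Pal U v) (hd : d ∉ Pal U v) (hcd : c ≠ d) :
    ∃ N : ℕ, ∀ n : ℕ, N ≤ n → ∀ lab : ℕ → Fin 6,
      (∀ k ≤ n, lab k ∈ K (v + cis (2 * Real.pi * k / n)) ∧ lab k ∉ Pal U v) → lab n = lab 0 →
      ∑ k ∈ Finset.range n, eps (lab k) (lab (k + 1)) {c, d} = 1 := by
  obtain ⟨e, hce, hde, hcov⟩ := exists_compl h3 hc hd hcd
  exact odd_of_not_frz hcov hcd hde hce hK.usc (fun y hy => Car.Q_ne h hK hv h3.le hy)
    (fun y hy => Car.Q_ne_compl h hK hv h3 hle hy)
    (fun y z hy hz hyz => Car.R60 h hK hv h3 hle hy hz hyz)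
    (not_frz h hK hv h3 hle hcov hcd hde hce)

end Vale.Agent.P032.S5.H180
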